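import Vale.Agent.P166.VarBound

/-!
Asymptotic comparison of admissible spectra.
-/

open MeasureTheory Topology Filter

set_option linter.unusedSectionVars false

namespace Vale.Agent.P166

section

variable {μ μ' : Measure ℝ} [IsProbabilityMeasure μ] [IsProbabilityMeasure μ']
  {lam lam' : (N : ℕ) → Fin N → ℝ}

lemma Admissible.ev_le (h : Admissible μ lam) {c : ℝ} (hc : sSup μ.support < c) :
    ∀ᶠ N : ℕ in atTop, ∀ i, lam N i ≤ c := by
  filter_upwards [h.top.eventually (gt_mem_nhds hc)] with N hN i
  exact (le_ciSup (Set.finite_range (lam N)).bddAbove i).trans hN.le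

lemma Admissible.ev_ge (h : Admissible μ lam) {c : ℝ} (hc : c < sInf μ.support) :
    ∀ᶠ N : ℕ in atTop, ∀ i, c ≤ lam N i := by
  filter_upwards [h.bot.eventually (lt_mem_nhds hc)] with N hN i
  exact hN.le.trans (ciInf_le (Set.finite_range (lam N)).bddBelow i)

/-- Convergence of stop-loss transforms. -/
lemma Admissible.stopLoss (h : Admissible μ lam) (hμ : IsCompact μ.support) (t : ℝ) :
    Tendsto (fun N : ℕ => (1 / (N : ℝ)) * ∑ i, max (lam N i - t) 0) atTop
      (𝓝 (∫ x, max (x - t) 0 ∂μ)) := by
  set R := sSup μ.support + 1 with hR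
  have hlt : sSup μ.support < R := by rw [hR]; linarith
  have h1 := h.weak (fun x => max (min x R - t) 0) (by fun_prop)
    ⟨|R - t|, fun x => by
      rw [abs_of_nonneg (le_max_right _ _)]
      refine max_le ?_ (abs_nonneg _)
      exact (sub_le_sub_right (min_le_right _ _) _).trans (le_abs_self _)⟩
  have h2 : ∫ x, max (min x R - t) 0 ∂μ = ∫ x, max (x - t) 0 ∂μ := by
    apply integral_congr_ae
    filter_upwards [Measure.support_mem_ae (μ := μ)] with x hx
    have : x ≤ R := (le_csSup hμ.bddAbove hx).trans hlt.le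
    simp only [min_eq_left this]
  rw [← h2]
  refine h1.congr' ?_
  filter_upwards [h.ev_le hlt] with N hN
  congr 1
  exact Finset.sum_congr rfl fun i _ => by rw [min_eq_left (hN i)]

lemma intble_stop (hμ : IsCompact μ.support) (t : ℝ) :
    Integrable (fun x : ℝ => max (x - t) 0) μ := by
  obtain ⟨B, hB⟩ := hμ.isBounded.exists_norm_le
  refine Integrable.of_bound (C := B + |t|) ?_ ?_
  · exact (by fun_prop : Continuous fun x : ℝ => max (x - t) 0).aestronglyMeasurable
  · filter_upwards [Measure.support_mem_ae (μ := μ)] with x hx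
    have h1 := hB x hx
    rw [Real.norm_eq_abs] at *
    rw [abs_of_nonneg (le_max_right _ _)]
    have hB0 : 0 ≤ B := (abs_nonneg _).trans h1
    refine max_le ?_ (by positivity)
    have := le_abs_self x
    have := neg_abs_le t
    linarith

lemma sSup_mem (hμ : IsCompact μ.support) : sSup μ.support ∈ μ.support :=
  hμ.sSup_mem (Measure.nonempty_support (IsProbabilityMeasure.ne_zero μ))

lemma stop_strict (hμ : IsCompact μ.support) {s t : ℝ} (hst : s < t)
    (hs : s < sSup μ.support) :
    ∫ x, max (x - t) 0 ∂μ < ∫ x, max (x - s) 0 ∂μ := by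
  have hi : Integrable (fun x : ℝ => max (x - s) 0 - max (x - t) 0) μ :=
    (intble_stop hμ s).sub (intble_stop hμ t)
  have hnn : 0 ≤ fun x : ℝ => max (x - s) 0 - max (x - t) 0 := by
    intro x
    have : max (x - t) 0 ≤ max (x - s) 0 := max_le_max (by linarith) le_rfl
    simp only [Pi.zero_apply]
    linarith
  have hpos : 0 < ∫ x, (max (x - s) 0 - max (x - t) 0) ∂μ := by
    rw [integral_pos_iff_support_of_nonneg hnn hi]
    have hsub : Set.Ioi s ⊆ Function.support fun x : ℝ => max (x - s) 0 - max (x - t) 0 := by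
      intro x hx
      rw [Set.mem_Ioi] at hx
      rw [Function.mem_support]
      have h1 : max (x - s) 0 = x - s := max_eq_left (by linarith)
      have h2 : max (x - t) 0 < x - s := max_lt (by linarith) (by linarith)
      rw [h1]
      linarith
    refine lt_of_lt_of_le ?_ (measure_mono hsub)
    exact (Measure.mem_support_iff_forall _).1 (sSup_mem hμ) _ (Ioi_mem_nhds hs)
  rw [integral_sub (intble_stop hμ s) (intble_stop hμ t)] at hpos
  linarith

lemma sSup_le_of_icx (hμ : IsCompact μ.support) (hμ' : IsCompact μ'.support)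
    (hicx : ∀ t : ℝ, ∫ x, max (x - t) 0 ∂μ ≤ ∫ x, max (x - t) 0 ∂μ') :
    sSup μ.support ≤ sSup μ'.support := by
  by_contra hcon
  push Not at hcon
  have h1 := stop_strict hμ (s := sSup μ'.support) (t := sSup μ.support) hcon hcon
  have h2 := hicx (sSup μ'.support)
  have h3 : ∫ x, max (x - sSup μ'.support) 0 ∂μ' = 0 := by
    apply integral_eq_zero_of_ae
    filter_upwards [Measure.support_mem_ae (μ := μ')] with x hx
    have := le_csSup hμ'.bddAbove hx
    simp only [Pi.zero_apply]
    exact max_eq_right (by linarith)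
  have h4 : 0 ≤ ∫ x, max (x - sSup μ.support) 0 ∂μ := integral_nonneg fun x => le_max_right _ _
  linarith

/-- **Asymptotic comparison** in the increasing convex (stop-loss) order. -/
theorem asymp_compare (hμ : IsCompact μ.support) (hμ' : IsCompact μ'.support)
    (h : Admissible μ lam) (h' : Admissible μ' lam')
    (hicx : ∀ t : ℝ, ∫ x, max (x - t) 0 ∂μ ≤ ∫ x, max (x - t) 0 ∂μ')
    {β : ℝ} (hβ : 0 ≤ β) {ε : ℝ} (hε : 0 < ε) :
    ∀ᶠ N : ℕ in atTop, meanPressure β (lam N) ≤ meanPressure β (lam' N) + β * ε / 2 := by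
  set b' := sSup μ'.support with hb'
  have hbb' : sSup μ.support ≤ b' := sSup_le_of_icx hμ hμ' hicx
  set t0 := min (sInf μ.support) (sInf μ'.support) - 1 with ht0
  have ht0a : t0 < sInf μ.support := by
    have := min_le_left (sInf μ.support) (sInf μ'.support); rw [ht0]; linarith
  have ht0b : t0 < sInf μ'.support := by
    have := min_le_right (sInf μ.support) (sInf μ'.support); rw [ht0]; linarith
  obtain ⟨J, hJ⟩ := exists_nat_ge ((b' + ε / 4 - t0) / (ε / 2))
  -- grid inequalities
  have hgrid : ∀ j : ℕ, t0 + j * (ε / 2) < b' + ε / 2 → ∀ᶠ N : ℕ in atTop,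
      (1 / (N : ℝ)) * ∑ i, max (lam N i - (t0 + j * (ε / 2))) 0 ≤
      (1 / (N : ℝ)) * ∑ i, max (lam' N i - (t0 + j * (ε / 2) - ε / 2)) 0 := by
    intro j hj
    have hlt : ∫ x, max (x - (t0 + j * (ε / 2))) 0 ∂μ <
        ∫ x, max (x - (t0 + j * (ε / 2) - ε / 2)) 0 ∂μ' :=
      (hicx _).trans_lt (stop_strict hμ' (by linarith) (by linarith))
    obtain ⟨c, hc1, hc2⟩ := exists_between hlt
    filter_upwards [(h.stopLoss hμ _).eventually (gt_mem_nhds hc1),
      (h'.stopLoss hμ' _).eventually (lt_mem_nhds hc2)] with N h1 h2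
    exact (h1.trans h2).le
  have hall : ∀ᶠ N : ℕ in atTop, ∀ j ∈ Finset.range (J + 1), t0 + j * (ε / 2) < b' + ε / 2 →
      (1 / (N : ℝ)) * ∑ i, max (lam N i - (t0 + j * (ε / 2))) 0 ≤
      (1 / (N : ℝ)) * ∑ i, max (lam' N i - (t0 + j * (ε / 2) - ε / 2)) 0 := by
    rw [Filter.eventually_all_finset]
    intro j _
    by_cases hj : t0 + j * (ε / 2) < b' + ε / 2
    · filter_upwards [hgrid j hj] with N hN _
      exact hN
    · exact Filter.Eventually.of_forall fun N hj' => absurd hj' hj
  filter_upwards [hall, h.ev_le (show sSup μ.support < b' + ε / 4 by linarith),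
    h.ev_ge ht0a, h'.ev_ge ht0b, eventually_gt_atTop 0] with N hN hle hge hge' hNpos
  have hNR : (0 : ℝ) < N := by exact_mod_cast hNpos
  apply meanPressure_le_of_stopLoss hβ hNpos
  have hN' : ∀ j : ℕ, j ≤ J → t0 + j * (ε / 2) < b' + ε / 2 →
      ∑ i, max (lam N i - (t0 + j * (ε / 2))) 0 ≤
      ∑ i, max (lam' N i - (t0 + j * (ε / 2) - ε / 2)) 0 := by
    intro j hj hj2
    have := hN j (Finset.mem_range.2 (by omega)) hj2
    exact le_of_mul_le_mul_left this (by positivity)
  intro t
  rcases le_or_gt (b' + ε / 4) t with hc | hc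
  · -- beyond the top edge
    have : ∑ i, max (lam N i - t) 0 = 0 := by
      apply Finset.sum_eq_zero
      intro i _
      apply max_eq_right
      have := hle i
      linarith
    rw [this]
    exact Finset.sum_nonneg fun i _ => le_max_right _ _
  rcases lt_or_ge t t0 with hc2 | hc2
  · -- below the bottom
    have hsmall : t0 + ((0 : ℕ) : ℝ) * (ε / 2) < b' + ε / 2 := by
      have h1 : sInf μ'.support ≤ sSup μ'.support := by
        apply csInf_le_csSup _ hμ'.bddBelow hμ'.bddAbove
        exact Measure.nonempty_support (IsProbabilityMeasure.ne_zero μ')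
      push_cast
      linarith
    have h0 := hN' 0 (Nat.zero_le _) hsmall
    have e1 : ∑ i, max (lam N i - (t0 + ((0 : ℕ) : ℝ) * (ε / 2))) 0 =
        ∑ i, (lam N i - t0) := by
      refine Finset.sum_congr rfl fun i _ => ?_
      push_cast
      rw [zero_mul, add_zero]
      exact max_eq_left (by linarith [hge i])
    have e2 : ∑ i, max (lam' N i - (t0 + ((0 : ℕ) : ℝ) * (ε / 2) - ε / 2)) 0 =
        ∑ i, (lam' N i - t0 + ε / 2) := by
      refine Finset.sum_congr rfl fun i _ => ?_
      push_cast
      rw [zero_mul, add_zero, max_eq_left]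
      · ring
      · linarith [hge' i]
    rw [e1, e2] at h0
    have e3 : ∑ i, max (lam N i - t) 0 = ∑ i, (lam N i - t0) + ∑ i : Fin N, (t0 - t) := by
      rw [← Finset.sum_add_distrib]
      refine Finset.sum_congr rfl fun i _ => ?_
      rw [max_eq_left]
      · ring
      · linarith [hge i]
    have e4 : ∑ i, (lam' N i - t0 + ε / 2) + ∑ i : Fin N, (t0 - t) ≤
        ∑ i, max (lam' N i + ε - t) 0 := by
      rw [← Finset.sum_add_distrib]
      refine Finset.sum_le_sum fun i _ => ?_
      refine le_trans ?_ (le_max_left _ _)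
      linarith
    linarith
  · -- on the grid
    set j := ⌊(t - t0) / (ε / 2)⌋₊ with hj
    have hjle : (j : ℝ) ≤ (t - t0) / (ε / 2) := Nat.floor_le (by
      apply div_nonneg <;> linarith)
    have hjlt : (t - t0) / (ε / 2) < j + 1 := Nat.lt_floor_add_one _
    have hε2 : 0 < ε / 2 := by linarith
    rw [le_div_iff₀ hε2] at hjle
    rw [div_lt_iff₀ hε2] at hjlt
    have hjJ : j ≤ J := by
      have h1 : (j : ℝ) ≤ J := by
        refine le_trans ?_ hJ
        rw [le_div_iff₀ hε2]
        linarith
      exact_mod_cast h1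
    have h1 := hN' j hjJ (by linarith)
    calc ∑ i, max (lam N i - t) 0 ≤ ∑ i, max (lam N i - (t0 + j * (ε / 2))) 0 := by
          refine Finset.sum_le_sum fun i _ => max_le_max ?_ le_rfl
          linarith
      _ ≤ ∑ i, max (lam' N i - (t0 + j * (ε / 2) - ε / 2)) 0 := h1
      _ ≤ ∑ i, max (lam' N i + ε - t) 0 := by
          refine Finset.sum_le_sum fun i _ => max_le_max ?_ le_rfl
          nlinarith

/-- The averaged pressures of two admissible sequences with the same limit law get close. -/
theorem mean_diff_tendsto (hμ : IsCompact μ.support)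
    (h : Admissible μ lam) (h' : Admissible μ lam') {β : ℝ} (hβ : 0 ≤ β) :
    Tendsto (fun N : ℕ => meanPressure β (lam N) - meanPressure β (lam' N)) atTop (𝓝 0) := by
  rw [Metric.tendsto_atTop]
  intro δ hδ
  set ε := δ / (β + 1) with hε
  have hβ1 : 0 < β + 1 := by linarith
  have hεpos : 0 < ε := div_pos hδ hβ1
  have hb : β * ε / 2 < δ := by
    have : β * ε < δ + δ := by
      have h1 : β * ε ≤ (β + 1) * ε := by nlinarith
      have h2 : (β + 1) * ε = δ := by rw [hε]; field_simp
      linarith
    linarith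
  obtain ⟨N0, hN0⟩ := eventually_atTop.1
    ((asymp_compare hμ hμ h h' (fun _ => le_rfl) hβ hεpos).and
      (asymp_compare hμ hμ h' h (fun _ => le_rfl) hβ hεpos))
  refine ⟨N0, fun N hN => ?_⟩
  obtain ⟨h1, h2⟩ := hN0 N hN
  rw [Real.dist_eq, sub_zero, abs_lt]
  constructor <;> linarith

/-- Variances vanish along admissible sequences. -/
theorem variance_tendsto (h : Admissible μ lam) {β : ℝ} (hβ : 0 ≤ β) :
    Tendsto (fun N : ℕ => ∫ U, (prs β (lam N) U - meanPressure β (lam N)) ^ 2 ∂(haarO N))
      atTop (𝓝 0) := by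
  set a := sInf μ.support - 1
  set b := sSup μ.support + 1
  have hev : ∀ᶠ N : ℕ in atTop,
      ∫ U, (prs β (lam N) U - meanPressure β (lam N)) ^ 2 ∂(haarO N) ≤
      4 * Real.pi ^ 2 * β ^ 2 * |b - a| ^ 2 * (1 + Real.log N) / N := by
    filter_upwards [h.ev_le (show sSup μ.support < b by linarith),
      h.ev_ge (show a < sInf μ.support by linarith), eventually_gt_atTop 0] with N h1 h2 hN
    apply variance_le hN hβ
    intro i j
    rw [abs_le]
    have := h1 i; have := h1 j; have := h2 i; have := h2 j
    have := le_abs_self (b - a)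
    constructor <;> linarith
  refine squeeze_zero' (Eventually.of_forall fun N => integral_nonneg fun U => sq_nonneg _) hev ?_
  have h1 : Tendsto (fun N : ℕ => (1 + Real.log N) / (N : ℝ)) atTop (𝓝 0) := by
    have h2 : Tendsto (fun x : ℝ => (1 + Real.log x) / x) atTop (𝓝 0) := by
      have h3 : Tendsto (fun x : ℝ => 1 / x + Real.log x / x) atTop (𝓝 (0 + 0)) := by
        refine Tendsto.add ?_ ?_
        · exact tendsto_inv_atTop_zero.congr fun x => (one_div x).symm
        · have := Real.isLittleO_log_id_atTop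
          exact this.tendsto_div_nhds_zero
      rw [add_zero] at h3
      refine h3.congr fun x => ?_
      rw [add_div]
    exact h2.comp tendsto_natCast_atTop_atTop
  have h4 := h1.const_mul (4 * Real.pi ^ 2 * β ^ 2 * |b - a| ^ 2)
  rw [mul_zero] at h4
  refine h4.congr fun N => ?_
  ring

/-- The combined statement: convergence in mean square of the pressure to the averaged pressure
of any other admissible sequence. -/
theorem universality (hμ : IsCompact μ.support)
    (h : Admissible μ lam) (h' : Admissible μ lam') {β : ℝ} (hβ : 0 ≤ β) :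
    Tendsto (fun N : ℕ => ∫ U, (prs β (lam N) U - meanPressure β (lam' N)) ^ 2 ∂(haarO N))
      atTop (𝓝 0) := by
  have h1 := variance_tendsto h hβ
  have h2 := (mean_diff_tendsto hμ h h' hβ).pow 2
  have h3 := h1.add h2
  simp only [ne_eq, OfNat.ofNat_ne_zero, not_false_eq_true, zero_pow, add_zero] at h3
  refine h3.congr fun N => ?_
  set m := meanPressure β (lam N)
  set m' := meanPressure β (lam' N)
  have hc := continuous_prs β (lam N)
  have h4 : ∀ U, (prs β (lam N) U - m') ^ 2 =
      (prs β (lam N) U - m) ^ 2 + (2 * (m - m') * (prs β (lam N) U - m) + (m - m') ^ 2) :=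
    fun U => by ring
  simp_rw [h4]
  have i1 : Integrable (fun U => (prs β (lam N) U - m) ^ 2) (haarO N) :=
    intble _ ((hc.sub continuous_const).pow 2)
  have i2 : Integrable (fun U => 2 * (m - m') * (prs β (lam N) U - m)) (haarO N) :=
    intble _ (continuous_const.mul (hc.sub continuous_const))
  have i3 : Integrable (fun U => prs β (lam N) U) (haarO N) := intble _ hc
  have i4 : Integrable (fun U => 2 * (m - m') * (prs β (lam N) U - m) + (m - m') ^ 2)
      (haarO N) := i2.add (integrable_const _)
  rw [integral_add i1 i4, integral_add i2 (integrable_const _),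
    integral_const_mul, integral_sub i3 (integrable_const _)]
  have h5 : ∫ U, prs β (lam N) U ∂(haarO N) = m := rfl
  rw [h5]
  simp

end

end Vale.Agent.P166
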