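import Vale.Agent.P166.Haar

/-!
Averaging a continuous function over the left action of a closed subgroup of a compact group.
-/

open MeasureTheory Topology

set_option linter.unusedSectionVars false

namespace Vale.Agent.P166

section Avg

variable {G : Type*} [Group G] [TopologicalSpace G] [IsTopologicalGroup G] [CompactSpace G]
  [T2Space G] [SecondCountableTopology G] [MeasurableSpace G] [BorelSpace G]

/-- Haar probability measure of a compact group. -/
noncomputable def haarP (K : Type*) [Group K] [TopologicalSpace K] [IsTopologicalGroup K]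
    [CompactSpace K] [MeasurableSpace K] [BorelSpace K] : Measure K :=
  Measure.haarMeasure (⊤ : TopologicalSpace.PositiveCompacts K)

instance haarP_isHaar (K : Type*) [Group K] [TopologicalSpace K] [IsTopologicalGroup K]
    [CompactSpace K] [MeasurableSpace K] [BorelSpace K] : (haarP K).IsHaarMeasure := by
  unfold haarP; infer_instance

instance haarP_isProb (K : Type*) [Group K] [TopologicalSpace K] [IsTopologicalGroup K]
    [CompactSpace K] [MeasurableSpace K] [BorelSpace K] : IsProbabilityMeasure (haarP K) := ⟨by
  have := Measure.haarMeasure_self (G := K) (K₀ := ⊤)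
  simpa [haarP] using this⟩

instance sct_subgroup (H : Subgroup G) : SecondCountableTopology H :=
  TopologicalSpace.Subtype.secondCountableTopology (H : Set G)

variable (H : Subgroup G) [CompactSpace H]

/-- Average of `f` over left translates by elements of `H`. -/
noncomputable def avg (f : G → ℝ) (U : G) : ℝ := ∫ V : H, f (V * U) ∂(haarP H)

lemma intble {X : Type*} [TopologicalSpace X] [CompactSpace X]
    [MeasurableSpace X] [BorelSpace X] (μ : Measure X) [IsFiniteMeasure μ] {f : X → ℝ}
    (hf : Continuous f) : Integrable f μ :=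
  hf.integrable_of_hasCompactSupport (HasCompactSupport.of_compactSpace f)

lemma swap_int {X Y : Type*} [TopologicalSpace X] [CompactSpace X]
    [TopologicalSpace Y] [CompactSpace Y]
    [SecondCountableTopology X] [SecondCountableTopology Y]
    [MeasurableSpace X] [BorelSpace X] (μ : Measure X) [IsFiniteMeasure μ]
    [MeasurableSpace Y] [BorelSpace Y] (ν : Measure Y) [IsFiniteMeasure ν]
    {f : X → Y → ℝ} (hf : Continuous (Function.uncurry f)) :
    ∫ x, ∫ y, f x y ∂ν ∂μ = ∫ y, ∫ x, f x y ∂μ ∂ν := by
  apply integral_integral_swap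
  exact intble _ hf

lemma continuous_param {X Y : Type*} [TopologicalSpace X] [FirstCountableTopology X]
    [LocallyCompactSpace X] [TopologicalSpace Y] [CompactSpace Y]
    [MeasurableSpace Y] [BorelSpace Y] (ν : Measure Y) [IsFiniteMeasure ν]
    {f : X → Y → ℝ} (hf : Continuous (Function.uncurry f)) :
    Continuous fun x => ∫ y, f x y ∂ν := by
  have := continuous_parametric_integral_of_continuous (μ := ν) hf isCompact_univ
  simpa using this

lemma continuous_param' {X Y : Type*} [TopologicalSpace X] [FirstCountableTopology X]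
    [LocallyCompactSpace X] [TopologicalSpace Y] [CompactSpace Y]
    [MeasurableSpace Y] [BorelSpace Y] (ν : Measure Y) [IsFiniteMeasure ν]
    {f : X → Y → ℝ} (hf : Continuous fun p : Y × X => f p.2 p.1) :
    Continuous fun x => ∫ y, f x y ∂ν :=
  continuous_param ν (f := f) (hf.comp continuous_swap)

variable {H}

lemma avg_continuous {f : G → ℝ} (hf : Continuous f) : Continuous (avg H f) := by
  unfold avg
  apply continuous_param
  exact hf.comp (by fun_prop)

lemma avg_inv {f : G → ℝ} (h : H) (U : G) : avg H f (h * U) = avg H f U := by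
  unfold avg
  have := integral_mul_right_haar (haarP H) h (fun V : H => f (V * U))
  rw [← this]
  congr 1
  funext V
  rw [Subgroup.coe_mul, mul_assoc]

lemma avg_avg {K : Subgroup G} [CompactSpace K] (hKH : K ≤ H) {f : G → ℝ} (hf : Continuous f)
    (U : G) : avg H (avg K f) U = avg H f U := by
  unfold avg
  rw [swap_int (haarP H) (haarP K) (f := fun (V : H) (W : K) => f (W * (V * U)))]
  · have : ∀ W : K, ∫ V : H, f (W * (V * U)) ∂(haarP H) = ∫ V : H, f (V * U) ∂(haarP H) := by
      intro W
      rw [← integral_mul_left_eq_self (μ := haarP H) (fun V : H => f (V * U)) ⟨W, hKH W.2⟩]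
      congr 1
      funext V
      rw [Subgroup.coe_mul, mul_assoc]
    simp_rw [this]
    simp
  · unfold Function.uncurry
    exact hf.comp (by fun_prop)

variable (ν : Measure G) [IsProbabilityMeasure ν] [ν.IsMulLeftInvariant]

lemma integral_avg_mul {f g : G → ℝ} (hf : Continuous f) (hg : Continuous g)
    (hginv : ∀ (h : H) (U : G), g (h * U) = g U) :
    ∫ U, avg H f U * g U ∂ν = ∫ U, f U * g U ∂ν := by
  unfold avg
  simp_rw [← integral_mul_const]
  rw [swap_int ν (haarP H) (f := fun (U : G) (V : H) => f (V * U) * g U)]
  · have : ∀ V : H, ∫ U, f (V * U) * g U ∂ν = ∫ U, f U * g U ∂ν := by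
      intro V
      rw [← integral_mul_left_eq_self (μ := ν) (fun U => f U * g U) (V : G)]
      congr 1
      funext U
      rw [hginv V U]
    simp_rw [this]
    simp
  · unfold Function.uncurry
    exact (hf.comp (by fun_prop)).mul (hg.comp (by fun_prop))

/-- Pythagoras for nested averages. -/
lemma integral_sub_sq {K : Subgroup G} [CompactSpace K] (hKH : K ≤ H) {f : G → ℝ}
    (hf : Continuous f) :
    ∫ U, (avg K f U - avg H f U) ^ 2 ∂ν = ∫ U, avg K f U ^ 2 ∂ν - ∫ U, avg H f U ^ 2 ∂ν := by
  have hcK : Continuous (avg K f) := avg_continuous hf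
  have hcH : Continuous (avg H f) := avg_continuous hf
  have h1 : ∫ U, avg K f U * avg H f U ∂ν = ∫ U, avg H f U * avg H f U ∂ν := by
    have := integral_avg_mul (H := H) ν hcK hcH (fun h U => avg_inv h U)
    rw [← this]
    congr 1
    funext U
    rw [avg_avg hKH hf]
  have h2 : ∀ U, (avg K f U - avg H f U) ^ 2 =
      avg K f U ^ 2 - (2 * (avg K f U * avg H f U) - avg H f U * avg H f U) := fun U => by ring
  simp_rw [h2]
  rw [integral_sub, integral_sub, integral_const_mul, h1]
  · have : ∀ U, avg H f U * avg H f U = avg H f U ^ 2 := fun U => by ring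
    simp_rw [this]
    ring
  · exact intble _ (continuous_const.mul (hcK.mul hcH))
  · exact intble _ (hcH.mul hcH)
  · exact intble _ (hcK.pow 2)
  · exact intble _ ((continuous_const.mul (hcK.mul hcH)).sub (hcH.mul hcH))

lemma sq_integral_le {X : Type*} [TopologicalSpace X] [CompactSpace X]
    [MeasurableSpace X] [BorelSpace X] (μ : Measure X) [IsProbabilityMeasure μ] {f : X → ℝ}
    (hf : Continuous f) : (∫ x, f x ∂μ) ^ 2 ≤ ∫ x, f x ^ 2 ∂μ := by
  set c := ∫ x, f x ∂μ
  have h0 : 0 ≤ ∫ x, (f x - c) ^ 2 ∂μ := integral_nonneg fun _ => sq_nonneg _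
  have h1 : ∫ x, (f x - c) ^ 2 ∂μ = ∫ x, f x ^ 2 ∂μ - c ^ 2 := by
    have : ∀ x, (f x - c) ^ 2 = f x ^ 2 - (2 * c * f x - c ^ 2) := fun x => by ring
    simp_rw [this]
    rw [integral_sub, integral_sub, integral_const_mul]
    · simp only [integral_const, probReal_univ, smul_eq_mul, one_mul]
      change _ - (2 * c * c - c ^ 2) = _
      ring
    · exact intble _ (continuous_const.mul hf)
    · exact integrable_const _
    · exact intble _ (hf.pow 2)
    · exact (intble _ (continuous_const.mul hf)).sub (integrable_const _)
  linarith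

/-- One martingale increment is controlled by left translations by elements of `H`. -/
lemma increment_le {K : Subgroup G} [CompactSpace K] (hKH : K ≤ H) {f : G → ℝ}
    (hf : Continuous f) {C : ℝ}
    (hC : ∀ V : H, ∫ U, (avg K f (V * U) - avg K f U) ^ 2 ∂ν ≤ C) :
    ∫ U, (avg K f U - avg H f U) ^ 2 ∂ν ≤ C := by
  have hcK : Continuous (avg K f) := avg_continuous hf
  have hcH : Continuous (avg H f) := avg_continuous hf
  have h1 : ∀ U, (avg K f U - avg H f U) ^ 2 ≤
      ∫ V : H, (avg K f (V * U) - avg K f U) ^ 2 ∂(haarP H) := by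
    intro U
    have h2 : avg K f U - avg H f U = - ∫ V : H, (avg K f (V * U) - avg K f U) ∂(haarP H) := by
      rw [integral_sub]
      · rw [← avg_avg hKH hf U]
        simp [avg]
      · exact intble _ (hcK.comp (by fun_prop))
      · exact integrable_const _
    rw [h2, neg_sq]
    apply sq_integral_le
    exact (hcK.comp (by fun_prop)).sub continuous_const
  calc ∫ U, (avg K f U - avg H f U) ^ 2 ∂ν
      ≤ ∫ U, ∫ V : H, (avg K f (V * U) - avg K f U) ^ 2 ∂(haarP H) ∂ν := by
        refine integral_mono (intble _ ((hcK.sub hcH).pow 2)) (intble _ ?_) h1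
        apply continuous_param
        unfold Function.uncurry
        exact ((hcK.comp (by fun_prop)).sub (hcK.comp (by fun_prop))).pow 2
    _ = ∫ V : H, ∫ U, (avg K f (V * U) - avg K f U) ^ 2 ∂ν ∂(haarP H) := by
        apply swap_int
        unfold Function.uncurry
        exact ((hcK.comp (by fun_prop)).sub (hcK.comp (by fun_prop))).pow 2
    _ ≤ ∫ V : H, C ∂(haarP H) := by
        refine integral_mono (intble _ ?_) (integrable_const _) hC
        apply continuous_param
        unfold Function.uncurry
        exact ((hcK.comp (by fun_prop)).sub (hcK.comp (by fun_prop))).pow 2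
    _ = C := by simp

end Avg

end Vale.Agent.P166
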