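import Mathlib

/-!
Definitions for P166: the orthogonal group with its Haar probability measure, the coupling
matrices, the pressure, and admissible sequences of spectra.
-/

open MeasureTheory Topology Filter

namespace Vale.Agent.P166

/-- The orthogonal group `O(N)`. -/
abbrev OG (N : ℕ) : Type := Matrix.orthogonalGroup (Fin N) ℝ

/-- The Borel sigma-algebra on `O(N)`. -/
instance (N : ℕ) : MeasurableSpace (OG N) := borel _

instance (N : ℕ) : BorelSpace (OG N) := ⟨rfl⟩

lemma OG_mul_transpose {N : ℕ} (U : OG N) : (U : Matrix (Fin N) (Fin N) ℝ) *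
    (U : Matrix (Fin N) (Fin N) ℝ).transpose = 1 :=
  (Matrix.mem_orthogonalGroup_iff (Fin N) ℝ).1 U.2

lemma OG_transpose_mul {N : ℕ} (U : OG N) : (U : Matrix (Fin N) (Fin N) ℝ).transpose *
    (U : Matrix (Fin N) (Fin N) ℝ) = 1 :=
  (Matrix.mem_orthogonalGroup_iff' (Fin N) ℝ).1 U.2

lemma OG_isClosed (N : ℕ) :
    IsClosed ((Matrix.orthogonalGroup (Fin N) ℝ : Submonoid _) : Set (Matrix (Fin N) (Fin N) ℝ)) := by
  have : ((Matrix.orthogonalGroup (Fin N) ℝ : Submonoid _) : Set (Matrix (Fin N) (Fin N) ℝ)) =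
      {A | A * A.transpose = 1} := by
    ext A
    exact Matrix.mem_orthogonalGroup_iff (Fin N) ℝ
  rw [this]
  exact isClosed_eq (continuous_id.matrix_mul continuous_id.matrix_transpose) continuous_const

lemma OG_entry_sq_sum {N : ℕ} (U : OG N) (i : Fin N) :
    ∑ j, (U : Matrix (Fin N) (Fin N) ℝ) i j ^ 2 = 1 := by
  have h := congrFun (congrFun (OG_mul_transpose U) i) i
  simp only [Matrix.mul_apply, Matrix.transpose_apply, Matrix.one_apply_eq] at h
  rw [← h]
  exact Finset.sum_congr rfl fun j _ => by ring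

lemma OG_entry_abs_le {N : ℕ} (U : OG N) (i j : Fin N) :
    |(U : Matrix (Fin N) (Fin N) ℝ) i j| ≤ 1 := by
  have h := OG_entry_sq_sum U i
  have h2 : (U : Matrix (Fin N) (Fin N) ℝ) i j ^ 2 ≤ 1 := by
    rw [← h]
    exact Finset.single_le_sum (f := fun j => (U : Matrix (Fin N) (Fin N) ℝ) i j ^ 2)
      (fun j _ => sq_nonneg _) (Finset.mem_univ j)
  exact abs_le_one_iff_mul_self_le_one.2 (by nlinarith)

instance instCompactSpaceOG (N : ℕ) : CompactSpace (OG N) := by
  refine (isCompact_iff_compactSpace (s := ((Matrix.orthogonalGroup (Fin N) ℝ : Submonoid _) :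
    Set (Matrix (Fin N) (Fin N) ℝ)))).1 ?_
  have hc : IsCompact {A : Matrix (Fin N) (Fin N) ℝ | ∀ i j, A i j ∈ Set.Icc (-1 : ℝ) 1} := by
    have h1 : IsCompact (Set.pi Set.univ (fun _ : Fin N => Set.pi Set.univ
        (fun _ : Fin N => Set.Icc (-1 : ℝ) 1))) :=
      isCompact_univ_pi fun _ => isCompact_univ_pi fun _ => isCompact_Icc
    have h2 : {A : Fin N → Fin N → ℝ | ∀ i j, A i j ∈ Set.Icc (-1 : ℝ) 1} =
        Set.pi Set.univ (fun _ : Fin N => Set.pi Set.univ
        (fun _ : Fin N => Set.Icc (-1 : ℝ) 1)) := by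
      ext A
      simp only [Set.mem_ofPred_eq, Set.mem_pi, Set.mem_univ, true_implies]
    rw [← h2] at h1
    exact h1
  refine hc.of_isClosed_subset (OG_isClosed N) ?_
  intro A hA i j
  exact abs_le.1 (OG_entry_abs_le ⟨A, hA⟩ i j)

instance (N : ℕ) : SecondCountableTopology (OG N) := by
  have : SecondCountableTopology (Matrix (Fin N) (Fin N) ℝ) :=
    inferInstanceAs (SecondCountableTopology (Fin N → Fin N → ℝ))
  exact inferInstanceAs (SecondCountableTopology
    ((Matrix.orthogonalGroup (Fin N) ℝ : Submonoid _) : Set (Matrix (Fin N) (Fin N) ℝ)))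

/-- The Haar probability measure on `O(N)`. -/
noncomputable def haarO (N : ℕ) : Measure (OG N) := Measure.haarMeasure ⊤

instance (N : ℕ) : (haarO N).IsHaarMeasure := by
  unfold haarO; infer_instance

instance (N : ℕ) : IsProbabilityMeasure (haarO N) := ⟨by
  have := Measure.haarMeasure_self (G := OG N) (K₀ := ⊤)
  simpa [haarO] using this⟩

/-- The real vector of an Ising configuration `σ ∈ {-1,1}^N`. -/
def spinVec {N : ℕ} (σ : Fin N → ℤˣ) : Fin N → ℝ := fun i => ((σ i : ℤ) : ℝ)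

open scoped Matrix in
/-- The coupling matrix `Uᵀ Λ U`, `Λ = diag(lam)`. -/
noncomputable def coupling {N : ℕ} (lam : Fin N → ℝ) (U : OG N) : Matrix (Fin N) (Fin N) ℝ :=
  (U : Matrix (Fin N) (Fin N) ℝ)ᵀ * Matrix.diagonal lam * (U : Matrix (Fin N) (Fin N) ℝ)

open scoped Matrix in
/-- The pressure `(1/N) log [2^{-N} ∑_σ exp((β/2) σᵀ J σ)]`. -/
noncomputable def pressure {N : ℕ} (β : ℝ) (J : Matrix (Fin N) (Fin N) ℝ) : ℝ :=
  (1 / (N : ℝ)) * Real.log (((2 : ℝ) ^ N)⁻¹ *
    ∑ σ : Fin N → ℤˣ, Real.exp (β / 2 * (spinVec σ ⬝ᵥ J *ᵥ spinVec σ)))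

/-- The standing assumptions on the spectra `λ_{1,N}, …, λ_{N,N}` with limiting law `μ`:
the empirical measures converge weakly to `μ` (tested on bounded continuous functions), and the
smallest and largest eigenvalues converge to the minimum and maximum of the support of `μ`. -/
structure Admissible (μ : Measure ℝ) (lam : (N : ℕ) → Fin N → ℝ) : Prop where
  weak : ∀ f : ℝ → ℝ, Continuous f → (∃ C, ∀ x, |f x| ≤ C) →
    Tendsto (fun N : ℕ => (1 / (N : ℝ)) * ∑ i, f (lam N i)) atTop (𝓝 (∫ x, f x ∂μ))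
  bot : Tendsto (fun N : ℕ => ⨅ i, lam N i) atTop (𝓝 (sInf μ.support))
  top : Tendsto (fun N : ℕ => ⨆ i, lam N i) atTop (𝓝 (sSup μ.support))

end Vale.Agent.P166
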