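import Mathlib

/-!
Finite Gibbs measures: the elementary convexity inequality for log-partition functions.
-/

open Finset

namespace Vale.Agent.P166

section Gibbs

variable {Ω : Type*} [Fintype Ω]

/-- Partition function of the energy `E`. -/
noncomputable def Zf (E : Ω → ℝ) : ℝ := ∑ ω, Real.exp (E ω)

/-- Gibbs average of `φ` for the energy `E`. -/
noncomputable def gibbs (E : Ω → ℝ) (φ : Ω → ℝ) : ℝ := (∑ ω, Real.exp (E ω) * φ ω) / Zf E

lemma Zf_pos [Nonempty Ω] (E : Ω → ℝ) : 0 < Zf E :=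
  Finset.sum_pos (fun _ _ => Real.exp_pos _) Finset.univ_nonempty

lemma gibbs_add (E φ ψ : Ω → ℝ) : gibbs E (fun ω => φ ω + ψ ω) = gibbs E φ + gibbs E ψ := by
  simp [gibbs, mul_add, Finset.sum_add_distrib, add_div]

lemma gibbs_sub (E φ ψ : Ω → ℝ) : gibbs E (fun ω => φ ω - ψ ω) = gibbs E φ - gibbs E ψ := by
  simp [gibbs, mul_sub, Finset.sum_sub_distrib, sub_div]

lemma gibbs_const_mul (E φ : Ω → ℝ) (c : ℝ) : gibbs E (fun ω => c * φ ω) = c * gibbs E φ := by
  simp only [gibbs]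
  rw [← mul_div_assoc, Finset.mul_sum]
  congr 1
  exact Finset.sum_congr rfl fun ω _ => by ring

lemma gibbs_sum {ι : Type*} (s : Finset ι) (E : Ω → ℝ) (φ : ι → Ω → ℝ) :
    gibbs E (fun ω => ∑ i ∈ s, φ i ω) = ∑ i ∈ s, gibbs E (φ i) := by
  simp only [gibbs, Finset.mul_sum]
  rw [Finset.sum_comm, Finset.sum_div]

lemma gibbs_const [Nonempty Ω] (E : Ω → ℝ) (c : ℝ) : gibbs E (fun _ => c) = c := by
  have h := (Zf_pos E).ne'
  simp only [gibbs, ← Finset.sum_mul]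
  rw [show (∑ ω, Real.exp (E ω)) = Zf E from rfl]
  field_simp

lemma gibbs_mono [Nonempty Ω] (E : Ω → ℝ) {φ ψ : Ω → ℝ} (h : ∀ ω, φ ω ≤ ψ ω) :
    gibbs E φ ≤ gibbs E ψ := by
  unfold gibbs
  have := Zf_pos E
  gcongr with ω _
  exact h ω

lemma gibbs_nonneg [Nonempty Ω] (E : Ω → ℝ) {φ : Ω → ℝ} (h : ∀ ω, 0 ≤ φ ω) :
    0 ≤ gibbs E φ := by
  have := gibbs_mono E (φ := fun _ => 0) (ψ := φ) h
  rwa [gibbs_const] at this

/-- Gibbs variational inequality (tangent line of the convex function `log Z`). -/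
lemma gibbs_le_log_sub [Nonempty Ω] (E E' : Ω → ℝ) :
    gibbs E (fun ω => E' ω - E ω) ≤ Real.log (Zf E') - Real.log (Zf E) := by
  have hZ := Zf_pos E
  have hZ' := Zf_pos E'
  set c := gibbs E (fun ω => E' ω - E ω) with hc
  rw [← Real.log_div hZ'.ne' hZ.ne', Real.le_log_iff_exp_le (div_pos hZ' hZ), le_div_iff₀ hZ]
  have key : ∀ ω, Real.exp c * (Real.exp (E ω) * (1 + ((E' ω - E ω) - c))) ≤ Real.exp (E' ω) := by
    intro ω
    have h1 : 1 + ((E' ω - E ω) - c) ≤ Real.exp ((E' ω - E ω) - c) := by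
      have := Real.add_one_le_exp ((E' ω - E ω) - c)
      linarith
    calc Real.exp c * (Real.exp (E ω) * (1 + ((E' ω - E ω) - c)))
        ≤ Real.exp c * (Real.exp (E ω) * Real.exp ((E' ω - E ω) - c)) := by
          gcongr
      _ = Real.exp (E' ω) := by
          rw [← Real.exp_add, ← Real.exp_add]; congr 1; ring
  have h2 : ∑ ω, Real.exp c * (Real.exp (E ω) * (1 + ((E' ω - E ω) - c))) ≤ Zf E' :=
    Finset.sum_le_sum fun ω _ => key ω
  have h3 : ∑ ω, Real.exp c * (Real.exp (E ω) * (1 + ((E' ω - E ω) - c))) =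
      Real.exp c * Zf E := by
    rw [← Finset.mul_sum]
    congr 1
    have : ∀ ω, Real.exp (E ω) * (1 + ((E' ω - E ω) - c)) =
        Real.exp (E ω) * (1 - c) + Real.exp (E ω) * (E' ω - E ω) := fun ω => by ring
    simp_rw [this]
    rw [Finset.sum_add_distrib, ← Finset.sum_mul]
    have h4 : ∑ ω, Real.exp (E ω) * (E' ω - E ω) = c * Zf E := by
      rw [hc, gibbs]; field_simp
    rw [h4, show (∑ ω, Real.exp (E ω)) = Zf E from rfl]; ring
  linarith

/-- Cauchy-Schwarz for Gibbs averages. -/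
lemma gibbs_sq_le [Nonempty Ω] (E φ : Ω → ℝ) :
    (gibbs E φ) ^ 2 ≤ gibbs E (fun ω => φ ω ^ 2) := by
  set c := gibbs E φ
  have h0 : 0 ≤ gibbs E (fun ω => (φ ω - c) ^ 2) := gibbs_nonneg E fun ω => sq_nonneg _
  have h1 : gibbs E (fun ω => (φ ω - c) ^ 2) = gibbs E (fun ω => φ ω ^ 2) - c ^ 2 := by
    have : (fun ω => (φ ω - c) ^ 2) = fun ω => (φ ω ^ 2 - (2 * c) * φ ω) + c ^ 2 := by
      funext ω; ring
    rw [this, gibbs_add, gibbs_sub, gibbs_const_mul, gibbs_const]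
    change _ - 2 * c * c + _ = _
    ring
  linarith

end Gibbs

end Vale.Agent.P166
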