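import Vale.Agent.P166.Defs

/-!
Right invariance of the Haar probability measure on a compact group.
-/

open MeasureTheory Topology

namespace Vale.Agent.P166

section General

variable {G : Type*} [Group G] [TopologicalSpace G] [IsTopologicalGroup G] [CompactSpace G]
  [MeasurableSpace G] [BorelSpace G]

/-- Haar probability measure on a compact group is right invariant. -/
lemma haar_map_mul_right (μ : Measure G) [μ.IsHaarMeasure] [IsProbabilityMeasure μ] (g : G) :
    Measure.map (· * g) μ = μ := by
  have hp : IsProbabilityMeasure (Measure.map (· * g) μ) :=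
    Measure.isProbabilityMeasure_map (by fun_prop)
  exact Measure.isHaarMeasure_eq_of_isProbabilityMeasure _ _

lemma integral_mul_right_haar (μ : Measure G) [μ.IsHaarMeasure] [IsProbabilityMeasure μ] (g : G)
    (f : G → ℝ) : ∫ x, f (x * g) ∂μ = ∫ x, f x ∂μ := by
  conv_rhs => rw [← haar_map_mul_right μ g]
  have : (fun x : G => x * g) = (Homeomorph.mulRight g).toMeasurableEquiv := rfl
  rw [this, MeasureTheory.integral_map_equiv]
  rfl

end General

end Vale.Agent.P166
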