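import Vale.Agent.P166.Model

/-!
Comparison of averaged pressures through weak majorization (stop-loss order).
-/

open MeasureTheory Topology Matrix Finset

namespace Vale.Agent.P166

variable {N : ℕ}

/-- Abel summation: if `a` is nonnegative and nondecreasing and all tail sums of `x` are
nonpositive, then `∑ a_i x_i ≤ 0`. -/
lemma abel_tail : ∀ (N : ℕ) (a x : Fin N → ℝ), (∀ i, 0 ≤ a i) → Monotone a →
    (∀ m : Fin N, ∑ i ∈ univ.filter (fun i => m ≤ i), x i ≤ 0) → ∑ i, a i * x i ≤ 0 := by
  intro N
  induction N with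
  | zero => intro a x _ _ _; simp
  | succ n ih =>
    intro a x ha hmono htail
    have h0 := htail 0
    have hall : (univ.filter (fun i : Fin (n + 1) => 0 ≤ i)) = univ := by
      ext i; simp
    rw [hall, Fin.sum_univ_succ] at h0
    rw [Fin.sum_univ_succ]
    have key := ih (fun i => a i.succ - a 0) (fun i => x i.succ)
      (fun i => sub_nonneg.2 (hmono (Fin.zero_le _)))
      (fun i j hij => sub_le_sub_right (hmono (Fin.succ_le_succ_iff.2 hij)) _)
      (by
        intro m
        have := htail m.succ
        have hs : ∑ i ∈ univ.filter (fun i : Fin (n + 1) => m.succ ≤ i), x i =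
            ∑ i ∈ univ.filter (fun i : Fin n => m ≤ i), x i.succ := by
          rw [Finset.sum_filter, Fin.sum_univ_succ, Finset.sum_filter]
          have h1 : ¬ (m.succ ≤ (0 : Fin (n + 1))) := by
            simp
          rw [if_neg h1, zero_add]
          refine Finset.sum_congr rfl fun i _ => ?_
          simp only [Fin.succ_le_succ_iff]
        rw [hs] at this
        exact this)
    have e1 : ∑ i : Fin n, (a i.succ - a 0) * x i.succ =
        ∑ i : Fin n, a i.succ * x i.succ - a 0 * ∑ i : Fin n, x i.succ := by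
      rw [Finset.mul_sum, ← Finset.sum_sub_distrib]
      exact Finset.sum_congr rfl fun i _ => by ring
    rw [e1] at key
    have h2 : a 0 * (x 0 + ∑ i : Fin n, x i.succ) ≤ 0 :=
      mul_nonpos_of_nonneg_of_nonpos (ha 0) h0
    nlinarith

/-- Comparison for nondecreasing arrangements with tail-sum domination. -/
lemma meanPressure_le_of_tail {β : ℝ} (hβ : 0 < β) (hN : 0 < N) {lam lam' : Fin N → ℝ} {ε : ℝ}
    (hlam : Monotone lam)
    (htail : ∀ m : Fin N, ∑ i ∈ univ.filter (fun i => m ≤ i), (lam i - lam' i - ε) ≤ 0) :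
    meanPressure β lam ≤ meanPressure β lam' + β * ε / 2 := by
  have hNR : (0 : ℝ) < N := by exact_mod_cast hN
  have h := meanPressure_tangent β lam lam'
  have h2 := abel_tail N (wt β lam) (fun i => lam i - lam' i - ε) (wt_nonneg β lam)
    (wt_mono hβ hlam) htail
  have h3 : ∑ i, wt β lam i * (lam i - lam' i - ε) =
      - ∑ i, wt β lam i * (lam' i - lam i) - ε * N := by
    rw [← wt_sum β lam, Finset.mul_sum, ← Finset.sum_neg_distrib, ← Finset.sum_sub_distrib]
    exact Finset.sum_congr rfl fun i _ => by ring
  rw [h3] at h2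
  have h4 : (1 / (N : ℝ)) * (β / 2) * (-(ε * N)) ≤
      (1 / (N : ℝ)) * (β / 2) * ∑ i, wt β lam i * (lam' i - lam i) := by
    apply mul_le_mul_of_nonneg_left _ (by positivity)
    linarith
  have h5 : (1 / (N : ℝ)) * (β / 2) * (-(ε * N)) = - (β * ε / 2) := by
    field_simp
  linarith

/-- Comparison in terms of stop-loss sums, for arbitrary arrangements. -/
theorem meanPressure_le_of_stopLoss {β : ℝ} (hβ : 0 ≤ β) (hN : 0 < N) {lam lam' : Fin N → ℝ}
    {ε : ℝ}
    (h : ∀ t : ℝ, ∑ i, max (lam i - t) 0 ≤ ∑ i, max (lam' i + ε - t) 0) :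
    meanPressure β lam ≤ meanPressure β lam' + β * ε / 2 := by
  rcases hβ.lt_or_eq with hβ' | hβ'
  swap
  · subst hβ'
    have : ∀ l : Fin N → ℝ, meanPressure 0 l = 0 := by
      intro l
      unfold meanPressure
      simp_rw [pressure_coupling]
      have : ∀ U : OG N, Zf (en 0 l U) = 2 ^ N := by
        intro U
        simp [Zf, en, Finset.card_univ]
      simp_rw [this]
      simp
    simp [this]
  have key : ∀ l l' : Fin N → ℝ, Monotone l → Monotone l' →
      (∀ t : ℝ, ∑ i, max (l i - t) 0 ≤ ∑ i, max (l' i + ε - t) 0) →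
      meanPressure β l ≤ meanPressure β l' + β * ε / 2 := by
    intro l l' hl hl' hst
    refine meanPressure_le_of_tail hβ' hN hl ?_
    intro m
    have h1 := hst (l' m + ε)
    have h2 : ∑ i, max (l' i + ε - (l' m + ε)) 0 =
        ∑ i ∈ univ.filter (fun i => m ≤ i), (l' i - l' m) := by
      rw [Finset.sum_filter]
      refine Finset.sum_congr rfl fun i _ => ?_
      split_ifs with hmi
      · rw [max_eq_left]
        · ring
        · have := hl' hmi; linarith
      · rw [max_eq_right]
        have := hl' (le_of_not_ge hmi); linarith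
    have h3 : ∑ i ∈ univ.filter (fun i => m ≤ i), (l i - (l' m + ε)) ≤
        ∑ i, max (l i - (l' m + ε)) 0 := by
      rw [Finset.sum_filter]
      refine Finset.sum_le_sum fun i _ => ?_
      split_ifs
      · exact le_max_left _ _
      · exact le_max_right _ _
    have h4 : ∑ i ∈ univ.filter (fun i => m ≤ i), (l i - l' i - ε) =
        ∑ i ∈ univ.filter (fun i => m ≤ i), (l i - (l' m + ε)) -
        ∑ i ∈ univ.filter (fun i => m ≤ i), (l' i - l' m) := by
      rw [← Finset.sum_sub_distrib]
      exact Finset.sum_congr rfl fun i _ => by ring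
    rw [h4]
    linarith
  have hs : ∀ l : Fin N → ℝ, Monotone (fun i => l (Tuple.sort l i)) := fun l =>
    Tuple.monotone_sort l
  have := key (fun i => lam (Tuple.sort lam i)) (fun i => lam' (Tuple.sort lam' i))
    (hs lam) (hs lam') (by
      intro t
      rw [Equiv.sum_comp (Tuple.sort lam) (fun i => max (lam i - t) 0)]
      rw [Equiv.sum_comp (Tuple.sort lam') (fun i => max (lam' i + ε - t) 0)]
      exact h t)
  rwa [meanPressure_perm, meanPressure_perm] at this

end Vale.Agent.P166
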