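import Vale.Agent.P166.Gibbs
import Vale.Agent.P166.Haar

/-!
The orthogonally invariant Ising spin glass: definitions and symmetries.
-/

open MeasureTheory Topology Matrix Finset

namespace Vale.Agent.P166

variable {N : ℕ}

/-- The rotated spin vector `U σ`. -/
noncomputable def rot (U : OG N) (σ : Fin N → ℤˣ) : Fin N → ℝ :=
  (U : Matrix (Fin N) (Fin N) ℝ) *ᵥ spinVec σ

/-- The energy in the rotated frame. -/
noncomputable def en (β : ℝ) (lam : Fin N → ℝ) (U : OG N) (σ : Fin N → ℤˣ) : ℝ :=
  β / 2 * ∑ i, lam i * (rot U σ i) ^ 2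

lemma spinVec_sq (σ : Fin N → ℤˣ) (i : Fin N) : spinVec σ i ^ 2 = 1 := by
  unfold spinVec
  rcases Int.units_eq_one_or (σ i) with h | h <;> simp [h]

lemma quad_coupling (lam : Fin N → ℝ) (U : OG N) (σ : Fin N → ℤˣ) :
    spinVec σ ⬝ᵥ coupling lam U *ᵥ spinVec σ = ∑ i, lam i * (rot U σ i) ^ 2 := by
  unfold coupling
  rw [← Matrix.mulVec_mulVec, ← Matrix.mulVec_mulVec, Matrix.dotProduct_mulVec,
    Matrix.vecMul_transpose]
  simp only [dotProduct, rot, Matrix.mulVec_diagonal]
  exact Finset.sum_congr rfl fun i _ => by ring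

lemma rot_sq_sum (U : OG N) (σ : Fin N → ℤˣ) : ∑ i, (rot U σ i) ^ 2 = N := by
  have h : rot U σ ⬝ᵥ rot U σ = spinVec σ ⬝ᵥ spinVec σ := by
    unfold rot
    rw [Matrix.dotProduct_mulVec, Matrix.vecMul_mulVec, OG_transpose_mul, Matrix.vecMul_one]
  have h2 : spinVec σ ⬝ᵥ spinVec σ = N := by
    simp only [dotProduct]
    have : ∀ i, spinVec σ i * spinVec σ i = 1 := fun i => by
      have := spinVec_sq σ i; rw [← this]; ring
    simp [this]
  rw [← h2, ← h]
  simp only [dotProduct]
  exact Finset.sum_congr rfl fun i _ => by ring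

lemma pressure_coupling (β : ℝ) (lam : Fin N → ℝ) (U : OG N) :
    pressure β (coupling lam U) =
      (1 / (N : ℝ)) * (Real.log (Zf (en β lam U)) - N * Real.log 2) := by
  unfold pressure
  simp_rw [quad_coupling]
  rw [show (∑ σ : Fin N → ℤˣ, Real.exp (β / 2 * ∑ i, lam i * (rot U σ i) ^ 2)) =
    Zf (en β lam U) from rfl]
  rw [Real.log_mul (by positivity) (Zf_pos _).ne', Real.log_inv, Real.log_pow]
  ring

lemma continuous_rot (σ : Fin N → ℤˣ) (i : Fin N) :
    Continuous fun U : OG N => rot U σ i := by
  unfold rot Matrix.mulVec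
  simp only [dotProduct]
  refine continuous_finsetSum _ fun j _ => ?_
  refine Continuous.mul ?_ continuous_const
  have : Continuous fun U : OG N => (U : Matrix (Fin N) (Fin N) ℝ) := continuous_subtype_val
  exact this.matrix_elem i j

lemma continuous_en (β : ℝ) (lam : Fin N → ℝ) (σ : Fin N → ℤˣ) :
    Continuous fun U : OG N => en β lam U σ := by
  unfold en
  refine continuous_const.mul (continuous_finsetSum _ fun i _ => ?_)
  exact continuous_const.mul ((continuous_rot σ i).pow 2)

lemma continuous_Zf_en (β : ℝ) (lam : Fin N → ℝ) :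
    Continuous fun U : OG N => Zf (en β lam U) := by
  unfold Zf
  exact continuous_finsetSum _ fun σ _ => (continuous_en β lam σ).rexp

lemma continuous_pressure (β : ℝ) (lam : Fin N → ℝ) :
    Continuous fun U : OG N => pressure β (coupling lam U) := by
  simp_rw [pressure_coupling]
  refine continuous_const.mul (Continuous.sub ?_ continuous_const)
  exact (continuous_Zf_en β lam).log fun U => (Zf_pos _).ne'

lemma continuous_gibbs_en (β : ℝ) (lam : Fin N → ℝ) {φ : OG N → (Fin N → ℤˣ) → ℝ}
    (hφ : ∀ σ, Continuous fun U => φ U σ) :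
    Continuous fun U : OG N => gibbs (en β lam U) (φ U) := by
  unfold gibbs
  refine Continuous.div ?_ (continuous_Zf_en β lam) fun U => (Zf_pos _).ne'
  exact continuous_finsetSum _ fun σ _ => ((continuous_en β lam σ).rexp).mul (hφ σ)

/-- Signed permutation matrices as elements of `O(N)`: `(S x)_i = s_i x_{π i}`. -/
noncomputable def spm (s : Fin N → ℤˣ) (π : Equiv.Perm (Fin N)) : OG N :=
  ⟨Matrix.of fun i j => if π i = j then spinVec s i else 0, by
    rw [Matrix.mem_orthogonalGroup_iff]
    ext i j
    simp only [Matrix.mul_apply, Matrix.of_apply, Matrix.transpose_apply]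
    rcases eq_or_ne i j with h | h
    · subst h
      simp only [Matrix.one_apply_eq]
      rw [Finset.sum_eq_single (π i)]
      · simp only [if_true]
        have := spinVec_sq s i; rw [← this]; ring
      · intro b _ hb
        simp [hb.symm]
      · simp
    · rw [Matrix.one_apply_ne h]
      refine Finset.sum_eq_zero fun k _ => ?_
      by_cases h1 : π i = k
      · by_cases h2 : π j = k
        · exact absurd (π.injective (h1.trans h2.symm)) h
        · simp [h2]
      · simp [h1]⟩

lemma spm_apply (s : Fin N → ℤˣ) (π : Equiv.Perm (Fin N)) (i j : Fin N) :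
    (spm s π : Matrix (Fin N) (Fin N) ℝ) i j = if π i = j then spinVec s i else 0 := rfl

lemma spm_mulVec (s : Fin N → ℤˣ) (π : Equiv.Perm (Fin N)) (x : Fin N → ℝ) (i : Fin N) :
    ((spm s π : Matrix (Fin N) (Fin N) ℝ) *ᵥ x) i = spinVec s i * x (π i) := by
  simp only [Matrix.mulVec, dotProduct, spm_apply]
  rw [Finset.sum_eq_single (π i)]
  · simp
  · intro b _ hb
    simp [hb.symm]
  · simp

lemma rot_mul (V U : OG N) (σ : Fin N → ℤˣ) :
    rot (V * U) σ = (V : Matrix (Fin N) (Fin N) ℝ) *ᵥ rot U σ := by
  unfold rot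
  rw [Matrix.mulVec_mulVec]
  rfl

lemma rot_spm_mul (s : Fin N → ℤˣ) (π : Equiv.Perm (Fin N)) (U : OG N) (σ : Fin N → ℤˣ)
    (i : Fin N) : rot (spm s π * U) σ i = spinVec s i * rot U σ (π i) := by
  rw [rot_mul, spm_mulVec]

lemma rot_spm_mul_sq (s : Fin N → ℤˣ) (π : Equiv.Perm (Fin N)) (U : OG N) (σ : Fin N → ℤˣ)
    (i : Fin N) : (rot (spm s π * U) σ i) ^ 2 = (rot U σ (π i)) ^ 2 := by
  rw [rot_spm_mul, mul_pow, spinVec_sq, one_mul]

lemma en_spm (β : ℝ) (lam : Fin N → ℝ) (s : Fin N → ℤˣ) (π : Equiv.Perm (Fin N)) (U : OG N) :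
    en β lam (spm s π * U) = en β (fun i => lam (π.symm i)) U := by
  funext σ
  unfold en
  congr 1
  simp_rw [rot_spm_mul_sq]
  rw [← Equiv.sum_comp π (fun i => lam (π.symm i) * rot U σ i ^ 2)]
  simp

/-- The averaged (quenched) pressure. -/
noncomputable def meanPressure (β : ℝ) (lam : Fin N → ℝ) : ℝ :=
  ∫ U, pressure β (coupling lam U) ∂(haarO N)

/-- The mean squared rotated spin in coordinate `i`. -/
noncomputable def wt (β : ℝ) (lam : Fin N → ℝ) (i : Fin N) : ℝ :=
  ∫ U, gibbs (en β lam U) (fun σ => (rot U σ i) ^ 2) ∂(haarO N)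

lemma integrable_of_continuous {G : Type*} [TopologicalSpace G] [CompactSpace G]
    [MeasurableSpace G] [BorelSpace G] (μ : Measure G) [IsFiniteMeasure μ] {f : G → ℝ}
    (hf : Continuous f) : Integrable f μ :=
  hf.integrable_of_hasCompactSupport (HasCompactSupport.of_compactSpace f)

lemma meanPressure_perm (β : ℝ) (lam : Fin N → ℝ) (π : Equiv.Perm (Fin N)) :
    meanPressure β (fun i => lam (π i)) = meanPressure β lam := by
  unfold meanPressure
  rw [← integral_mul_left_eq_self (μ := haarO N) (fun U => pressure β (coupling lam U))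
    (spm 1 π⁻¹)]
  congr 1
  funext U
  rw [pressure_coupling, pressure_coupling, en_spm]
  rfl

lemma wt_perm (β : ℝ) (lam : Fin N → ℝ) (π : Equiv.Perm (Fin N)) (i : Fin N) :
    wt β (fun i => lam (π i)) i = wt β lam (π i) := by
  unfold wt
  rw [← integral_mul_left_eq_self (μ := haarO N)
    (fun U => gibbs (en β lam U) (fun σ => (rot U σ (π i)) ^ 2)) (spm 1 π⁻¹)]
  congr 1
  funext U
  simp_rw [en_spm, rot_spm_mul_sq]
  simp
  rfl

lemma wt_nonneg (β : ℝ) (lam : Fin N → ℝ) (i : Fin N) : 0 ≤ wt β lam i :=
  integral_nonneg fun _ => gibbs_nonneg _ fun _ => sq_nonneg _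

lemma continuous_gibbs_rot_sq (β : ℝ) (lam : Fin N → ℝ) (i : Fin N) :
    Continuous fun U : OG N => gibbs (en β lam U) (fun σ => (rot U σ i) ^ 2) :=
  continuous_gibbs_en β lam fun σ => (continuous_rot σ i).pow 2

lemma wt_sum (β : ℝ) (lam : Fin N → ℝ) : ∑ i, wt β lam i = N := by
  unfold wt
  rw [← integral_finsetSum _ fun i _ =>
    integrable_of_continuous _ (continuous_gibbs_rot_sq β lam i)]
  simp_rw [← gibbs_sum, rot_sq_sum, gibbs_const]
  simp

/-- Tangent inequality for the averaged pressure. -/
lemma meanPressure_tangent (β : ℝ) (lam lam' : Fin N → ℝ) :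
    (1 / (N : ℝ)) * (β / 2) * ∑ i, wt β lam i * (lam' i - lam i) ≤
      meanPressure β lam' - meanPressure β lam := by
  unfold meanPressure wt
  rw [← integral_sub (integrable_of_continuous _ (continuous_pressure β lam'))
    (integrable_of_continuous _ (continuous_pressure β lam))]
  simp_rw [← integral_mul_const]
  rw [← integral_finsetSum _ fun i _ =>
    (integrable_of_continuous _ (continuous_gibbs_rot_sq β lam i)).mul_const _]
  rw [← integral_const_mul]
  refine integral_mono ?_ ?_ ?_
  · refine integrable_of_continuous _ ?_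
    refine continuous_const.mul (continuous_finsetSum _ fun i _ => ?_)
    exact (continuous_gibbs_rot_sq β lam i).mul continuous_const
  · exact integrable_of_continuous _
      ((continuous_pressure β lam').sub (continuous_pressure β lam))
  · intro U
    simp only
    rw [pressure_coupling, pressure_coupling, ← mul_sub]
    rw [mul_assoc]
    refine mul_le_mul_of_nonneg_left ?_ (by positivity)
    have h := gibbs_le_log_sub (en β lam U) (en β lam' U)
    have h2 : gibbs (en β lam U) (fun ω => en β lam' U ω - en β lam U ω) =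
        β / 2 * ∑ i, gibbs (en β lam U) (fun σ => (rot U σ i) ^ 2) * (lam' i - lam i) := by
      have : (fun ω => en β lam' U ω - en β lam U ω) =
          fun σ => β / 2 * ∑ i, (lam' i - lam i) * (rot U σ i) ^ 2 := by
        funext σ
        unfold en
        rw [← mul_sub, ← Finset.sum_sub_distrib]
        congr 1
        exact Finset.sum_congr rfl fun i _ => by ring
      rw [this, gibbs_const_mul, gibbs_sum]
      simp_rw [gibbs_const_mul]
      congr 1
      exact Finset.sum_congr rfl fun i _ => by ring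
    rw [h2] at h
    linarith

/-- Larger eigenvalues carry larger weight. -/
lemma wt_le_of_le {β : ℝ} (hβ : 0 < β) {lam : Fin N → ℝ} {i j : Fin N} (hij : lam i ≤ lam j) :
    wt β lam i ≤ wt β lam j := by
  by_cases hne : i = j
  · rw [hne]
  have hN : 0 < N := Nat.pos_of_ne_zero (by rintro rfl; exact i.elim0)
  have hNR : (0 : ℝ) < N := by exact_mod_cast hN
  rcases hij.lt_or_eq with hl | hl
  · have ht := meanPressure_tangent β lam (fun k => lam (Equiv.swap i j k))
    rw [meanPressure_perm, sub_self] at ht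
    have hsum : ∑ k, wt β lam k * (lam (Equiv.swap i j k) - lam k) =
        (wt β lam i - wt β lam j) * (lam j - lam i) := by
      rw [← Finset.add_sum_erase _ _ (Finset.mem_univ i)]
      rw [← Finset.add_sum_erase _ _ (Finset.mem_erase.2 ⟨Ne.symm hne, Finset.mem_univ j⟩)]
      rw [Finset.sum_eq_zero]
      · simp only [Equiv.swap_apply_left, Equiv.swap_apply_right]
        ring
      · intro k hk
        simp only [Finset.mem_erase, Finset.mem_univ, and_true] at hk
        rw [Equiv.swap_apply_of_ne_of_ne hk.2 hk.1]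
        ring
    rw [hsum] at ht
    by_contra hcon
    push Not at hcon
    have h1 : 0 < (wt β lam i - wt β lam j) * (lam j - lam i) :=
      mul_pos (by linarith) (by linarith)
    have h2 : 0 < (1 / (N : ℝ)) * (β / 2) * ((wt β lam i - wt β lam j) * (lam j - lam i)) := by
      positivity
    linarith
  · have hfun : (fun k => lam (Equiv.swap i j k)) = lam := by
      funext k
      by_cases h1 : k = i
      · subst h1; simp [hl]
      · by_cases h2 : k = j
        · subst h2; simp [hl]
        · rw [Equiv.swap_apply_of_ne_of_ne h1 h2]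
    have := wt_perm β lam (Equiv.swap i j) i
    rw [hfun] at this
    simp only [Equiv.swap_apply_left] at this
    exact this.le

lemma wt_mono {β : ℝ} (hβ : 0 < β) {lam : Fin N → ℝ} (hlam : Monotone lam) :
    Monotone (wt β lam) := fun _ _ hij => wt_le_of_le hβ (hlam hij)

lemma wt_anti {β : ℝ} (hβ : 0 < β) {lam : Fin N → ℝ} (hlam : Antitone lam) :
    Antitone (wt β lam) := fun _ _ hij => wt_le_of_le hβ (hlam hij)

end Vale.Agent.P166
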