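import Vale.Agent.P166.Rotation

/-!
Second moments of a randomly rotated unit vector under the stabilizer subgroups.
-/

open MeasureTheory Topology Matrix Finset

set_option linter.unusedSectionVars false

namespace Vale.Agent.P166

variable {N : ℕ}

/-- Indices strictly beyond `k`. -/
def above (k : Fin N) : Finset (Fin N) := univ.filter fun i => (k : ℕ) < i

lemma mem_above {k i : Fin N} : i ∈ above k ↔ (k : ℕ) < i := by
  simp [above]

lemma card_above (k : Fin N) : ((above k).card : ℝ) = (N : ℝ) - k - 1 := by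
  have h1 : (above k).card = N - 1 - k := by
    have : above k = Finset.Ioi k := by
      ext i; simp [above]
    rw [this, Fin.card_Ioi]
  rw [h1]
  have h2 : (k : ℕ) + 1 ≤ N := k.2
  have h3 : N - 1 - (k : ℕ) + (k + 1) = N := by omega
  have : ((N - 1 - (k : ℕ) : ℕ) : ℝ) + ((k : ℝ) + 1) = N := by exact_mod_cast h3
  linarith

lemma spm_mem_Hs {k : ℕ} {s : Fin N → ℤˣ} {π : Equiv.Perm (Fin N)}
    (hs : ∀ i : Fin N, (i : ℕ) < k → s i = 1) (hπ : ∀ i : Fin N, (i : ℕ) < k → π i = i) :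
    spm s π ∈ Hs N k := by
  intro i hi
  funext j
  rw [spm_mulVec]
  unfold dl
  by_cases hj : j = i
  · subst hj
    rw [hπ j hi]; simp [spinVec, hs j hi]
  · rw [if_neg hj, if_neg, mul_zero]
    intro h
    apply hj
    have : π j = π i := by rw [h, hπ i hi]
    exact π.injective this

lemma continuous_coord (k : ℕ) (w : Fin N → ℝ) (i : Fin N) :
    Continuous fun V : Hs N k => (((V : OG N) : Matrix (Fin N) (Fin N) ℝ) *ᵥ w) i := by
  have h1 : Continuous fun V : Hs N k => ((V : OG N) : Matrix (Fin N) (Fin N) ℝ) :=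
    continuous_subtype_val.comp continuous_subtype_val
  have h2 : Continuous fun V : Hs N k => (((V : OG N) : Matrix (Fin N) (Fin N) ℝ) *ᵥ w) :=
    h1.matrix_mulVec continuous_const
  exact (continuous_apply i).comp h2

/-- Second moment matrix of a rotated vector. -/
noncomputable def mom (k : ℕ) (w : Fin N → ℝ) (i j : Fin N) : ℝ :=
  ∫ V : Hs N k, (((V : OG N) : Matrix (Fin N) (Fin N) ℝ) *ᵥ w) i *
    (((V : OG N) : Matrix (Fin N) (Fin N) ℝ) *ᵥ w) j ∂(haarP (Hs N k))

lemma mom_spm {k : ℕ} {s : Fin N → ℤˣ} {π : Equiv.Perm (Fin N)}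
    (hs : ∀ i : Fin N, (i : ℕ) < k → s i = 1) (hπ : ∀ i : Fin N, (i : ℕ) < k → π i = i)
    (w : Fin N → ℝ) (i j : Fin N) :
    mom k w i j = spinVec s i * spinVec s j * mom k w (π i) (π j) := by
  unfold mom
  rw [← integral_mul_left_eq_self (μ := haarP (Hs N k))
    (fun V : Hs N k => (((V : OG N) : Matrix (Fin N) (Fin N) ℝ) *ᵥ w) i *
    (((V : OG N) : Matrix (Fin N) (Fin N) ℝ) *ᵥ w) j) ⟨spm s π, spm_mem_Hs hs hπ⟩]
  rw [← integral_const_mul]
  congr 1
  funext V
  have : ((((⟨spm s π, spm_mem_Hs hs hπ⟩ : Hs N k) * V : Hs N k) : OG N) :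
      Matrix (Fin N) (Fin N) ℝ) *ᵥ w =
      (spm s π : Matrix (Fin N) (Fin N) ℝ) *ᵥ (((V : OG N) : Matrix (Fin N) (Fin N) ℝ) *ᵥ w) := by
    rw [Subgroup.coe_mul, Submonoid.coe_mul, Matrix.mulVec_mulVec]
  rw [this, spm_mulVec, spm_mulVec]
  ring

lemma mom_offdiag {k : ℕ} (w : Fin N → ℝ) {i j : Fin N} (hij : i ≠ j) (hi : k ≤ (i : ℕ)) :
    mom k w i j = 0 := by
  have h := mom_spm (k := k) (s := fun l => if l = i then -1 else 1) (π := 1)
    (by
      intro l hl
      rw [if_neg]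
      intro h; rw [h] at hl; omega) (by intros; rfl) w i j
  have h1 : spinVec (fun l => if l = i then (-1 : ℤˣ) else 1) i = -1 := by simp [spinVec]
  have h2 : spinVec (fun l => if l = i then (-1 : ℤˣ) else 1) j = 1 := by
    simp [spinVec, hij.symm]
  rw [h1, h2] at h
  simp only [Equiv.Perm.coe_one, id_eq] at h
  linarith

lemma mom_diag {k : ℕ} (w : Fin N → ℝ) {i j : Fin N} (hi : k ≤ (i : ℕ)) (hj : k ≤ (j : ℕ)) :
    mom k w i i = mom k w j j := by
  have h := mom_spm (k := k) (s := 1) (π := Equiv.swap i j)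
    (by intros; rfl)
    (by
      intro l hl
      apply Equiv.swap_apply_of_ne_of_ne
      · intro h; rw [h] at hl; omega
      · intro h; rw [h] at hl; omega) w i i
  simp only [Equiv.swap_apply_left] at h
  rw [h]
  simp [spinVec]

lemma mom_diag_eq (k : Fin N) {w : Fin N → ℝ} (hw : ip w w = 1)
    (hw0 : ∀ i : Fin N, (i : ℕ) ≤ k → w i = 0) {i : Fin N} (hi : i ∈ above k) :
    mom (k + 1) w i i * ((N : ℝ) - k - 1) = 1 := by
  have hsum : ∑ j, mom (k + 1) w j j = 1 := by
    unfold mom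
    have hint : ∀ j : Fin N, Integrable (fun V : Hs N (k + 1) =>
        (((V : OG N) : Matrix (Fin N) (Fin N) ℝ) *ᵥ w) j *
        (((V : OG N) : Matrix (Fin N) (Fin N) ℝ) *ᵥ w) j) (haarP (Hs N (k + 1))) := fun j =>
      intble _ ((continuous_coord (k + 1) w j).mul (continuous_coord (k + 1) w j))
    rw [← integral_finsetSum _ fun j _ => hint j]
    have : ∀ V : Hs N (k + 1), ∑ j, (((V : OG N) : Matrix (Fin N) (Fin N) ℝ) *ᵥ w) j *
        (((V : OG N) : Matrix (Fin N) (Fin N) ℝ) *ᵥ w) j = 1 := by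
      intro V
      have := ip_mulVec (V : OG N) w w
      rw [hw] at this
      exact this
    simp_rw [this]
    simp
  have h0 : ∀ j : Fin N, j ∉ above k → mom (k + 1) w j j = 0 := by
    intro j hj
    rw [mem_above, not_lt] at hj
    unfold mom
    have : ∀ V : Hs N (k + 1), (((V : OG N) : Matrix (Fin N) (Fin N) ℝ) *ᵥ w) j = 0 := by
      intro V
      rw [Hs_coord V.2 w (Nat.lt_succ_of_le hj), hw0 j hj]
    simp_rw [this]
    simp
  rw [← Finset.sum_subset (Finset.subset_univ (above k)) (fun j _ hj => h0 j hj)] at hsum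
  have h1 : ∑ j ∈ above k, mom (k + 1) w j j = ∑ j ∈ above k, mom (k + 1) w i i := by
    refine Finset.sum_congr rfl fun j hj => ?_
    exact mom_diag w (mem_above.1 hj) (mem_above.1 hi)
  rw [h1, Finset.sum_const, nsmul_eq_mul, card_above] at hsum
  linarith

/-- Average of the square of a linear form of a randomly rotated unit vector. -/
lemma lin_sq_avg (k : Fin N) {w : Fin N → ℝ} (hw : ip w w = 1)
    (hw0 : ∀ i : Fin N, (i : ℕ) ≤ k → w i = 0) (c : Fin N → ℝ) :
    (∫ V : Hs N (k + 1), (∑ i, (((V : OG N) : Matrix (Fin N) (Fin N) ℝ) *ᵥ w) i * c i) ^ 2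
      ∂(haarP (Hs N (k + 1)))) * ((N : ℝ) - k - 1) = ∑ i ∈ above k, c i ^ 2 := by
  have h1 : ∀ V : Hs N (k + 1),
      (∑ i, (((V : OG N) : Matrix (Fin N) (Fin N) ℝ) *ᵥ w) i * c i) ^ 2 =
      ∑ i ∈ above k, ∑ j ∈ above k, (c i * c j) *
        ((((V : OG N) : Matrix (Fin N) (Fin N) ℝ) *ᵥ w) i *
        (((V : OG N) : Matrix (Fin N) (Fin N) ℝ) *ᵥ w) j) := by
    intro V
    have h2 : ∑ i, (((V : OG N) : Matrix (Fin N) (Fin N) ℝ) *ᵥ w) i * c i =
        ∑ i ∈ above k, (((V : OG N) : Matrix (Fin N) (Fin N) ℝ) *ᵥ w) i * c i := by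
      symm
      apply Finset.sum_subset (Finset.subset_univ _)
      intro j _ hj
      rw [mem_above, not_lt] at hj
      rw [Hs_coord V.2 w (Nat.lt_succ_of_le hj), hw0 j hj, zero_mul]
    rw [h2, sq, Finset.sum_mul_sum]
    exact Finset.sum_congr rfl fun i _ => Finset.sum_congr rfl fun j _ => by ring
  simp_rw [h1]
  have hc : ∀ i j : Fin N, Continuous (fun V : Hs N (k + 1) => (c i * c j) *
        ((((V : OG N) : Matrix (Fin N) (Fin N) ℝ) *ᵥ w) i *
        (((V : OG N) : Matrix (Fin N) (Fin N) ℝ) *ᵥ w) j)) := fun i j =>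
    continuous_const.mul ((continuous_coord (k + 1) w i).mul (continuous_coord (k + 1) w j))
  have hint1 : ∀ i : Fin N, Integrable (fun V : Hs N (k + 1) => ∑ j ∈ above k, (c i * c j) *
        ((((V : OG N) : Matrix (Fin N) (Fin N) ℝ) *ᵥ w) i *
        (((V : OG N) : Matrix (Fin N) (Fin N) ℝ) *ᵥ w) j)) (haarP (Hs N (k + 1))) := fun i =>
    intble _ (continuous_finsetSum _ fun j _ => hc i j)
  have hint2 : ∀ i j : Fin N, Integrable (fun V : Hs N (k + 1) => (c i * c j) *
        ((((V : OG N) : Matrix (Fin N) (Fin N) ℝ) *ᵥ w) i *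
        (((V : OG N) : Matrix (Fin N) (Fin N) ℝ) *ᵥ w) j)) (haarP (Hs N (k + 1))) := fun i j =>
    intble _ (hc i j)
  rw [integral_finsetSum _ fun i _ => hint1 i]
  rw [Finset.sum_mul]
  refine Finset.sum_congr rfl fun i hi => ?_
  rw [integral_finsetSum _ fun j _ => hint2 i j]
  simp_rw [integral_const_mul]
  rw [Finset.sum_eq_single i]
  · change (c i * c i * mom (k + 1) w i i) * _ = _
    rw [mul_assoc, mom_diag_eq k hw hw0 hi]; ring
  · intro j _ hj
    change c i * c j * mom (k + 1) w i j = 0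
    rw [mom_offdiag w hj.symm (mem_above.1 hi), mul_zero]
  · intro h; exact absurd hi h

end Vale.Agent.P166
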