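import Vale.Agent.P166.Model
import Vale.Agent.P166.Averaging

/-!
Plane rotations in `O(N)`, the chain of coordinate stabilizers, and small-rotation estimates.
-/

open MeasureTheory Topology Matrix Finset

set_option linter.unusedSectionVars false

namespace Vale.Agent.P166

variable {N : ℕ}

/-- The inner product of real vectors. -/
def ip (x y : Fin N → ℝ) : ℝ := ∑ i, x i * y i

lemma ip_add_right (x y z : Fin N → ℝ) : ip x (fun i => y i + z i) = ip x y + ip x z := by
  simp [ip, mul_add, Finset.sum_add_distrib]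

lemma ip_smul_right (x y : Fin N → ℝ) (c : ℝ) : ip x (fun i => c * y i) = c * ip x y := by
  simp only [ip, Finset.mul_sum]
  exact Finset.sum_congr rfl fun i _ => by ring

/-- Kronecker delta. -/
def dl (k i : Fin N) : ℝ := if i = k then 1 else 0

lemma ip_dl (x : Fin N → ℝ) (k : Fin N) : ip x (dl k) = x k := by
  simp [ip, dl]

lemma dl_ip (x : Fin N → ℝ) (k : Fin N) : ip (dl k) x = x k := by
  simp [ip, dl]

/-- Matrix of the rotation by angle `h` in the plane spanned by `e_k` and `w`. -/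
noncomputable def Rmat (k : Fin N) (w : Fin N → ℝ) (h : ℝ) : Matrix (Fin N) (Fin N) ℝ :=
  Matrix.of fun i j => dl j i + (Real.cos h - 1) * (dl k i * dl k j + w i * w j) +
    Real.sin h * (dl k i * w j - w i * dl k j)

lemma Rmat_mulVec (k : Fin N) (w : Fin N → ℝ) (h : ℝ) (y : Fin N → ℝ) (i : Fin N) :
    (Rmat k w h *ᵥ y) i = y i + ((Real.cos h - 1) * y k + Real.sin h * ip w y) * dl k i +
      ((Real.cos h - 1) * ip w y - Real.sin h * y k) * w i := by
  simp only [Matrix.mulVec, dotProduct, Rmat, Matrix.of_apply]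
  have h1 : ∀ j, (dl j i + (Real.cos h - 1) * (dl k i * dl k j + w i * w j) +
      Real.sin h * (dl k i * w j - w i * dl k j)) * y j =
      dl i j * y j + ((Real.cos h - 1) * dl k i - Real.sin h * w i) * (dl k j * y j) +
      ((Real.cos h - 1) * w i + Real.sin h * dl k i) * (w j * y j) := by
    intro j
    have : dl j i = dl i j := by
      unfold dl
      by_cases hij : i = j
      · simp [hij]
      · simp [hij, Ne.symm hij]
    rw [this]; ring
  simp_rw [h1]
  rw [Finset.sum_add_distrib, Finset.sum_add_distrib, ← Finset.mul_sum, ← Finset.mul_sum]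
  have h2 : ∑ j, dl i j * y j = y i := dl_ip y i
  have h3 : ∑ j, dl k j * y j = y k := dl_ip y k
  rw [h2, h3]
  change _ + _ * ip w y = _
  ring

lemma Rmat_comp {k : Fin N} {w : Fin N → ℝ} (hw : ip w w = 1) (hwk : w k = 0) (h h' : ℝ) :
    Rmat k w h * Rmat k w h' = Rmat k w (h + h') := by
  apply Matrix.ext_of_mulVec_single
  intro l
  rw [← Matrix.mulVec_mulVec]
  set y : Fin N → ℝ := Pi.single l 1
  funext i
  have hk : (Rmat k w h' *ᵥ y) k = Real.cos h' * y k + Real.sin h' * ip w y := by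
    rw [Rmat_mulVec, hwk]
    simp only [dl, if_true]
    ring
  have hb : ip w (Rmat k w h' *ᵥ y) = Real.cos h' * ip w y - Real.sin h' * y k := by
    have : (Rmat k w h' *ᵥ y) = fun i => y i + (((Real.cos h' - 1) * y k +
        Real.sin h' * ip w y) * dl k i +
      ((Real.cos h' - 1) * ip w y - Real.sin h' * y k) * w i) := by
      funext i; rw [Rmat_mulVec]; ring
    rw [this, ip_add_right, ip_add_right, ip_smul_right, ip_smul_right, hw, ip_dl, hwk]
    ring
  rw [Rmat_mulVec k w h, hk, hb, Rmat_mulVec, Rmat_mulVec, Real.cos_add, Real.sin_add]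
  ring

lemma Rmat_zero (k : Fin N) (w : Fin N → ℝ) : Rmat k w 0 = 1 := by
  ext i j
  simp only [Rmat, Matrix.of_apply, Real.cos_zero, Real.sin_zero, Matrix.one_apply, dl]
  simp

lemma Rmat_transpose (k : Fin N) (w : Fin N → ℝ) (h : ℝ) :
    (Rmat k w h)ᵀ = Rmat k w (-h) := by
  ext i j
  simp only [Rmat, Matrix.of_apply, Matrix.transpose_apply, Real.cos_neg, Real.sin_neg]
  have : dl i j = dl j i := by
    unfold dl
    by_cases hij : i = j
    · simp [hij]
    · simp [hij, Ne.symm hij]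
  rw [this]; ring

/-- Rotation as an element of `O(N)` (junk value `1` if `w` is not a unit vector with `w k = 0`). -/
noncomputable def Rot (k : Fin N) (w : Fin N → ℝ) (h : ℝ) : OG N :=
  open Classical in
  if hw : ip w w = 1 ∧ w k = 0 then
    ⟨Rmat k w h, by
      rw [Matrix.mem_orthogonalGroup_iff, Rmat_transpose, Rmat_comp hw.1 hw.2, add_neg_cancel,
        Rmat_zero]⟩
  else 1

lemma Rot_coe {k : Fin N} {w : Fin N → ℝ} (hw : ip w w = 1) (hwk : w k = 0) (h : ℝ) :
    (Rot k w h : Matrix (Fin N) (Fin N) ℝ) = Rmat k w h := by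
  unfold Rot
  rw [dif_pos ⟨hw, hwk⟩]

lemma Rot_mul {k : Fin N} {w : Fin N → ℝ} (hw : ip w w = 1) (hwk : w k = 0) (h h' : ℝ) :
    Rot k w h * Rot k w h' = Rot k w (h + h') := by
  apply Subtype.ext
  rw [Submonoid.coe_mul, Rot_coe hw hwk, Rot_coe hw hwk, Rot_coe hw hwk, Rmat_comp hw hwk]

lemma Rot_zero {k : Fin N} {w : Fin N → ℝ} (hw : ip w w = 1) (hwk : w k = 0) :
    Rot k w 0 = 1 := by
  apply Subtype.ext
  rw [Rot_coe hw hwk, Rmat_zero]
  rfl

/-- Orthogonal matrices preserve the inner product. -/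
lemma ip_mulVec (V : OG N) (x y : Fin N → ℝ) :
    ip ((V : Matrix (Fin N) (Fin N) ℝ) *ᵥ x) ((V : Matrix (Fin N) (Fin N) ℝ) *ᵥ y) = ip x y := by
  have : ((V : Matrix (Fin N) (Fin N) ℝ) *ᵥ x) ⬝ᵥ ((V : Matrix (Fin N) (Fin N) ℝ) *ᵥ y)
      = x ⬝ᵥ y := by
    rw [Matrix.dotProduct_mulVec, Matrix.vecMul_mulVec, OG_transpose_mul, Matrix.vecMul_one]
  exact this

/-- The stabilizer of the first `k` coordinate vectors in `O(N)`. -/
def Hs (N k : ℕ) : Subgroup (OG N) where
  carrier := {V | ∀ i : Fin N, (i : ℕ) < k →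
    (V : Matrix (Fin N) (Fin N) ℝ) *ᵥ (dl i) = dl i}
  mul_mem' := by
    intro a b ha hb i hi
    rw [Submonoid.coe_mul, ← Matrix.mulVec_mulVec, hb i hi, ha i hi]
  one_mem' := by
    intro i _
    simp
  inv_mem' := by
    intro a ha i hi
    have h1 := ha i hi
    calc ((a⁻¹ : OG N) : Matrix (Fin N) (Fin N) ℝ) *ᵥ (dl i)
        = ((a⁻¹ : OG N) : Matrix (Fin N) (Fin N) ℝ) *ᵥ
          ((a : Matrix (Fin N) (Fin N) ℝ) *ᵥ (dl i)) := by rw [h1]
      _ = ((a⁻¹ * a : OG N) : Matrix (Fin N) (Fin N) ℝ) *ᵥ (dl i) := by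
          rw [Submonoid.coe_mul, Matrix.mulVec_mulVec]
      _ = dl i := by simp

lemma mem_Hs {N k : ℕ} {V : OG N} : V ∈ Hs N k ↔ ∀ i : Fin N, (i : ℕ) < k →
    (V : Matrix (Fin N) (Fin N) ℝ) *ᵥ (dl i) = dl i := Iff.rfl

lemma Hs_closed (N k : ℕ) : IsClosed ((Hs N k : Subgroup (OG N)) : Set (OG N)) := by
  have : ((Hs N k : Subgroup (OG N)) : Set (OG N)) = ⋂ i : Fin N, ⋂ _ : (i : ℕ) < k,
      {V : OG N | (V : Matrix (Fin N) (Fin N) ℝ) *ᵥ (dl i) = dl i} := by
    ext V
    simp only [Set.mem_iInter, SetLike.mem_coe, mem_Hs]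
    rfl
  rw [this]
  refine isClosed_iInter fun i => isClosed_iInter fun _ => ?_
  refine isClosed_eq ?_ continuous_const
  exact Continuous.matrix_mulVec continuous_subtype_val continuous_const

instance (N k : ℕ) : CompactSpace (Hs N k) :=
  isCompact_iff_compactSpace.1 (Hs_closed N k).isCompact

lemma Hs_anti {N : ℕ} {k l : ℕ} (h : k ≤ l) : Hs N l ≤ Hs N k := fun _ hV i hi =>
  hV i (lt_of_lt_of_le hi h)

lemma Hs_coord {k : ℕ} {V : OG N} (hV : V ∈ Hs N k) (y : Fin N → ℝ) {i : Fin N}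
    (hi : (i : ℕ) < k) : ((V : Matrix (Fin N) (Fin N) ℝ) *ᵥ y) i = y i := by
  calc ((V : Matrix (Fin N) (Fin N) ℝ) *ᵥ y) i
      = ip ((V : Matrix (Fin N) (Fin N) ℝ) *ᵥ y) (dl i) := (ip_dl _ _).symm
    _ = ip ((V : Matrix (Fin N) (Fin N) ℝ) *ᵥ y) ((V : Matrix (Fin N) (Fin N) ℝ) *ᵥ dl i) := by
        rw [hV i hi]
    _ = y i := by rw [ip_mulVec, ip_dl]

/-- Conjugation of a rotation by an element stabilizing `e_k`. -/
lemma conj_Rot {k : Fin N} {w : Fin N → ℝ} (hw : ip w w = 1) (hwk : w k = 0)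
    {V : OG N} (hV : V ∈ Hs N (k + 1)) (h : ℝ) :
    V * Rot k w h = Rot k ((V : Matrix (Fin N) (Fin N) ℝ) *ᵥ w) h * V := by
  have hw' : ip ((V : Matrix (Fin N) (Fin N) ℝ) *ᵥ w) ((V : Matrix (Fin N) (Fin N) ℝ) *ᵥ w) = 1 := by
    rw [ip_mulVec, hw]
  have hwk' : ((V : Matrix (Fin N) (Fin N) ℝ) *ᵥ w) k = 0 := by
    rw [Hs_coord hV w (Nat.lt_succ_self _), hwk]
  apply Subtype.ext
  rw [Submonoid.coe_mul, Submonoid.coe_mul, Rot_coe hw hwk, Rot_coe hw' hwk']
  apply Matrix.ext_of_mulVec_single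
  intro l
  rw [← Matrix.mulVec_mulVec, ← Matrix.mulVec_mulVec]
  set y : Fin N → ℝ := Pi.single l 1
  funext i
  rw [Rmat_mulVec, ip_mulVec, Hs_coord hV y (Nat.lt_succ_self _)]
  have : (Rmat k w h *ᵥ y) = y + (((Real.cos h - 1) * y k + Real.sin h * ip w y) • dl k +
      ((Real.cos h - 1) * ip w y - Real.sin h * y k) • w) := by
    funext j
    rw [Rmat_mulVec]
    simp only [Pi.add_apply, Pi.smul_apply, smul_eq_mul]
    ring
  rw [this, Matrix.mulVec_add, Matrix.mulVec_add, Matrix.mulVec_smul, Matrix.mulVec_smul,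
    hV k (Nat.lt_succ_self _)]
  simp only [Pi.add_apply, Pi.smul_apply, smul_eq_mul]
  ring

/-- Coset representatives: every element of `Hs N k` is, modulo `Hs N (k+1)` on the left, a
rotation in a plane through `e_k`, of angle at most `π`. -/
lemma coset_rep {k : Fin N} (hk : (k : ℕ) + 1 < N) {V : OG N} (hV : V ∈ Hs N k) :
    ∃ (w : Fin N → ℝ) (θ : ℝ), ip w w = 1 ∧ (∀ i : Fin N, (i : ℕ) ≤ k → w i = 0) ∧
      0 ≤ θ ∧ θ ≤ Real.pi ∧ V * (Rot k w θ)⁻¹ ∈ Hs N (k + 1) := by
  set x : Fin N → ℝ := fun j => (V : Matrix (Fin N) (Fin N) ℝ) k j with hx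
  have hxx : ip x x = 1 := by
    have := OG_entry_sq_sum V k
    unfold ip
    rw [← this]
    exact Finset.sum_congr rfl fun j _ => by rw [hx]; ring
  have hx0 : ∀ i : Fin N, (i : ℕ) < k → x i = 0 := by
    intro i hi
    have h1 := congrFun (hV i hi) k
    have h2 : ((V : Matrix (Fin N) (Fin N) ℝ) *ᵥ (dl i)) k = x i := by
      simp only [Matrix.mulVec, dotProduct, hx]
      exact ip_dl _ i
    rw [h2] at h1
    rw [h1]
    unfold dl
    rw [if_neg]
    intro h; rw [h] at hi; exact lt_irrefl _ hi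
  set c := x k with hc
  have hc2 : c ^ 2 ≤ 1 := by
    rw [← hxx]
    have : c ^ 2 = x k * x k := by rw [hc]; ring
    rw [this]
    exact Finset.single_le_sum (f := fun j => x j * x j)
      (fun j _ => mul_self_nonneg _) (Finset.mem_univ k)
  have hc1 : -1 ≤ c ∧ c ≤ 1 := abs_le.1 (abs_le_one_iff_mul_self_le_one.2 (by nlinarith))
  -- the finishing argument
  have finish : ∀ (w : Fin N → ℝ), ip w w = 1 → (∀ i : Fin N, (i : ℕ) ≤ k → w i = 0) →
      (∀ j, x j = Real.cos (Real.arccos c) * dl k j + Real.sin (Real.arccos c) * w j) →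
      V * (Rot k w (Real.arccos c))⁻¹ ∈ Hs N (k + 1) := by
    intro w hw hw0 hxw i hi
    have hwk : w k = 0 := hw0 k le_rfl
    have hinv : (Rot k w (Real.arccos c))⁻¹ = Rot k w (-Real.arccos c) := by
      rw [inv_eq_iff_mul_eq_one, Rot_mul hw hwk, add_neg_cancel, Rot_zero hw hwk]
    rw [hinv, Submonoid.coe_mul, ← Matrix.mulVec_mulVec, Rot_coe hw hwk]
    rcases Nat.lt_succ_iff_lt_or_eq.1 hi with h | h
    · have h1 : Rmat k w (-Real.arccos c) *ᵥ dl i = dl i := by
        funext j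
        rw [Rmat_mulVec, ip_dl, hw0 i h.le]
        have : dl i k = 0 := by
          unfold dl; rw [if_neg]; intro h'; rw [h'] at h; exact lt_irrefl _ h
        rw [this]; ring
      rw [h1, hV i h]
    · have hik : i = k := Fin.ext h
      subst hik
      have h1 : Rmat i w (-Real.arccos c) *ᵥ dl i = x := by
        funext j
        rw [Rmat_mulVec, ip_dl, hwk, hxw j]
        have : dl i i = 1 := by simp [dl]
        rw [this, Real.cos_neg, Real.sin_neg]; ring
      rw [h1]
      have h2 : x = (V : Matrix (Fin N) (Fin N) ℝ)ᵀ *ᵥ dl i := by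
        funext j
        simp only [Matrix.mulVec, dotProduct, Matrix.transpose_apply, hx]
        exact (ip_dl (fun l => (V : Matrix (Fin N) (Fin N) ℝ) l j) i).symm
      rw [h2, Matrix.mulVec_mulVec, OG_mul_transpose, Matrix.one_mulVec]
  by_cases hc3 : c ^ 2 = 1
  · -- degenerate case
    have hrest : ∀ j, j ≠ k → x j = 0 := by
      intro j hj
      have h1 : x j ^ 2 + c ^ 2 ≤ 1 := by
        rw [← hxx]
        have : x j ^ 2 + c ^ 2 = ∑ i ∈ {j, k}, x i * x i := by
          rw [Finset.sum_pair hj, hc]; ring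
        rw [this]
        exact Finset.sum_le_sum_of_subset_of_nonneg (Finset.subset_univ _)
          fun i _ _ => mul_self_nonneg _
      have : x j ^ 2 ≤ 0 := by linarith
      exact pow_eq_zero_iff (two_ne_zero) |>.1 (le_antisymm this (sq_nonneg _))
    refine ⟨dl ⟨k + 1, hk⟩, Real.arccos c, ?_, ?_, Real.arccos_nonneg _, Real.arccos_le_pi _, ?_⟩
    · rw [ip_dl]; simp [dl]
    · intro i hi
      unfold dl
      rw [if_neg]
      intro h
      rw [h] at hi
      simp at hi
    · apply finish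
      · rw [ip_dl]; simp [dl]
      · intro i hi
        unfold dl
        rw [if_neg]
        intro h
        rw [h] at hi
        simp at hi
      · intro j
        rw [Real.cos_arccos hc1.1 hc1.2, Real.sin_arccos, hc3, sub_self, Real.sqrt_zero, zero_mul,
          add_zero]
        by_cases hj : j = k
        · rw [hj]; simp only [dl, if_true, mul_one]; exact hc.symm
        · rw [hrest j hj]; simp [dl, hj]
  · have hpos : 0 < 1 - c ^ 2 := by
      rcases lt_or_eq_of_le hc2 with h | h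
      · linarith
      · exact absurd h hc3
    set r := Real.sqrt (1 - c ^ 2) with hr
    have hrpos : 0 < r := Real.sqrt_pos.2 hpos
    have hr2 : r ^ 2 = 1 - c ^ 2 := Real.sq_sqrt hpos.le
    set w : Fin N → ℝ := fun j => (x j - c * dl k j) / r with hwdef
    have hw : ip w w = 1 := by
      have h1 : ip w w = (∑ j, (x j * x j - 2 * c * (x j * dl k j) +
          c ^ 2 * (dl k j * dl k j))) / r ^ 2 := by
        unfold ip
        rw [Finset.sum_div]
        refine Finset.sum_congr rfl fun j _ => ?_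
        rw [hwdef]
        field_simp
        ring
      rw [h1, Finset.sum_add_distrib, Finset.sum_sub_distrib, ← Finset.mul_sum, ← Finset.mul_sum]
      have h2 : ∑ j, x j * dl k j = c := ip_dl x k
      have h3 : ∑ j, dl k j * dl k j = 1 := by
        have := ip_dl (dl k) k
        unfold ip at this
        rw [this]; simp [dl]
      have h4 : ∑ j, x j * x j = 1 := hxx
      rw [h2, h3, h4, hr2]
      rw [div_eq_one_iff_eq hpos.ne']; ring
    have hw0 : ∀ i : Fin N, (i : ℕ) ≤ k → w i = 0 := by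
      intro i hi
      rcases lt_or_eq_of_le hi with h | h
      · have h1 : dl k i = 0 := by
          unfold dl; rw [if_neg]; intro h'; rw [h'] at h; exact lt_irrefl _ h
        simp only [hwdef, hx0 i h, h1]; simp
      · have : i = k := Fin.ext h
        subst this
        simp only [hwdef, dl, if_true, ← hc]; simp
    refine ⟨w, Real.arccos c, hw, hw0, Real.arccos_nonneg _, Real.arccos_le_pi _, ?_⟩
    apply finish w hw hw0
    intro j
    rw [Real.cos_arccos hc1.1 hc1.2, Real.sin_arccos, ← hr]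
    simp only [hwdef]
    field_simp
    ring

end Vale.Agent.P166
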