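import Vale.Agent.P166.Variance

/-!
Self-averaging: summing the martingale increments.
-/

open MeasureTheory Topology Matrix Finset

set_option linter.unusedSectionVars false

namespace Vale.Agent.P166

variable {N : ℕ}

lemma Lf_sq_eq (lam : Fin N → ℝ) (k : Fin N) (w : Fin N → ℝ) (y : Fin N → ℝ) :
    Lf lam k w y ^ 2 = y k ^ 2 * (∑ i, w i * ((lam k - lam i) * y i)) ^ 2 := by
  unfold Lf; ring

/-- Averaging the linear coefficient over the direction of rotation. -/
lemma avg_Lf {lam : Fin N → ℝ} {D : ℝ} (hD : ∀ i j, |lam i - lam j| ≤ D) (k : Fin N)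
    (hk : (k : ℕ) + 1 < N) {w : Fin N → ℝ} (hw : ip w w = 1)
    (hw0 : ∀ i : Fin N, (i : ℕ) ≤ k → w i = 0) (U : OG N) (σ : Fin N → ℤˣ) :
    ∫ V : Hs N (k + 1), Lf lam k (((V : OG N) : Matrix (Fin N) (Fin N) ℝ) *ᵥ w) (rot U σ) ^ 2
      ∂(haarP (Hs N (k + 1))) ≤ (D ^ 2 * N / ((N : ℝ) - k - 1)) * (rot U σ k) ^ 2 := by
  have hpos : (0 : ℝ) < (N : ℝ) - k - 1 := by
    have : ((k : ℕ) : ℝ) + 1 < N := by exact_mod_cast hk
    linarith
  simp_rw [Lf_sq_eq]
  rw [integral_const_mul]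
  have h1 := lin_sq_avg k hw hw0 (fun i => (lam k - lam i) * rot U σ i)
  have h2 : ∑ i ∈ above k, ((lam k - lam i) * rot U σ i) ^ 2 ≤ D ^ 2 * N := by
    calc ∑ i ∈ above k, ((lam k - lam i) * rot U σ i) ^ 2
        ≤ ∑ i ∈ above k, D ^ 2 * (rot U σ i) ^ 2 := by
          refine Finset.sum_le_sum fun i _ => ?_
          rw [mul_pow]
          have : (lam k - lam i) ^ 2 ≤ D ^ 2 := by
            rw [← sq_abs]
            have := hD k i
            gcongr
          exact mul_le_mul_of_nonneg_right this (sq_nonneg _)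
      _ ≤ ∑ i, D ^ 2 * (rot U σ i) ^ 2 :=
          Finset.sum_le_sum_of_subset_of_nonneg (Finset.subset_univ _)
            fun i _ _ => by positivity
      _ = D ^ 2 * N := by rw [← Finset.mul_sum, rot_sq_sum]
  rw [← h1] at h2
  rw [← le_div_iff₀ hpos] at h2
  rw [mul_comm (D ^ 2 * N / ((N : ℝ) - k - 1))]
  exact mul_le_mul_of_nonneg_left h2 (sq_nonneg _)

lemma continuous_Lf_joint (lam : Fin N → ℝ) (k : Fin N) (l : ℕ) (w : Fin N → ℝ)
    (σ : Fin N → ℤˣ) :
    Continuous fun p : Hs N l × OG N =>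
      Lf lam k (((p.1 : OG N) : Matrix (Fin N) (Fin N) ℝ) *ᵥ w) (rot p.2 σ) := by
  unfold Lf
  refine ((continuous_rot σ k).comp continuous_snd).mul (continuous_finsetSum _ fun i _ => ?_)
  refine Continuous.mul ?_ (continuous_const.mul ((continuous_rot σ i).comp continuous_snd))
  exact (continuous_coord l w i).comp continuous_fst

lemma continuous_gibbs_joint (β : ℝ) (lam : Fin N → ℝ) (k : Fin N) (l : ℕ) (w : Fin N → ℝ) :
    Continuous fun p : Hs N l × OG N => gibbs (en β lam p.2) (fun σ =>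
      Lf lam k (((p.1 : OG N) : Matrix (Fin N) (Fin N) ℝ) *ᵥ w) (rot p.2 σ) ^ 2) :=
  continuous_gibbs (fun σ => (continuous_en β lam σ).comp continuous_snd)
    fun σ => (continuous_Lf_joint lam k l w σ).pow 2

lemma continuous_Qf (β : ℝ) (lam : Fin N → ℝ) (k : Fin N) (l : ℕ) (w : Fin N → ℝ) :
    Continuous fun V : Hs N l => Qf β lam k (((V : OG N) : Matrix (Fin N) (Fin N) ℝ) *ᵥ w) := by
  unfold Qf
  apply continuous_param
  exact continuous_gibbs_joint β lam k l w

/-- Averaged mean-square linear coefficient. -/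
lemma avg_Qf (β : ℝ) {lam : Fin N → ℝ} {D : ℝ} (hD : ∀ i j, |lam i - lam j| ≤ D) (k : Fin N)
    (hk : (k : ℕ) + 1 < N) {w : Fin N → ℝ} (hw : ip w w = 1)
    (hw0 : ∀ i : Fin N, (i : ℕ) ≤ k → w i = 0) :
    ∫ V : Hs N (k + 1), Qf β lam k (((V : OG N) : Matrix (Fin N) (Fin N) ℝ) *ᵥ w)
      ∂(haarP (Hs N (k + 1))) ≤ (D ^ 2 * N / ((N : ℝ) - k - 1)) * wt β lam k := by
  unfold Qf
  rw [swap_int _ _ (continuous_gibbs_joint β lam k (k + 1) w)]
  unfold wt
  rw [← integral_const_mul]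
  refine integral_mono (intble _ ?_) (intble _
    (continuous_const.mul (continuous_gibbs_rot_sq β lam k))) ?_
  · exact continuous_param' (haarP (Hs N (k + 1))) (f := fun (U : OG N) (V : Hs N (k + 1)) =>
      gibbs (en β lam U) (fun σ =>
      Lf lam k (((V : OG N) : Matrix (Fin N) (Fin N) ℝ) *ᵥ w) (rot U σ) ^ 2))
      (continuous_gibbs_joint β lam k (k + 1) w)
  · intro U
    simp only
    rw [← gibbs_const_mul]
    have h1 : ∫ V : Hs N (k + 1), gibbs (en β lam U) (fun σ =>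
        Lf lam k (((V : OG N) : Matrix (Fin N) (Fin N) ℝ) *ᵥ w) (rot U σ) ^ 2)
        ∂(haarP (Hs N (k + 1))) =
        gibbs (en β lam U) (fun σ => ∫ V : Hs N (k + 1),
        Lf lam k (((V : OG N) : Matrix (Fin N) (Fin N) ℝ) *ᵥ w) (rot U σ) ^ 2
        ∂(haarP (Hs N (k + 1)))) := by
      unfold gibbs
      rw [integral_div]
      congr 1
      have hint : ∀ σ : Fin N → ℤˣ, Integrable (fun V : Hs N (k + 1) =>
          Real.exp (en β lam U σ) *
          Lf lam k (((V : OG N) : Matrix (Fin N) (Fin N) ℝ) *ᵥ w) (rot U σ) ^ 2)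
          (haarP (Hs N (k + 1))) := fun σ => intble _ (continuous_const.mul
        (((continuous_Lf_joint lam k (k + 1) w σ).comp (continuous_id.prodMk
          continuous_const)).pow 2))
      rw [integral_finsetSum _ fun σ _ => hint σ]
      simp_rw [integral_const_mul]
    rw [h1]
    exact gibbs_mono _ fun σ => avg_Lf hD k hk hw hw0 U σ

lemma diff_cont {l : ℕ} (R : OG N) {f : OG N → ℝ} (hf : Continuous f) :
    Continuous fun V' : Hs N l =>
      ∫ U, (f ((V' : OG N) * (R * U)) - f ((V' : OG N) * U)) ^ 2 ∂(haarO N) := by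
  refine continuous_param (haarO N) (f := fun (V' : Hs N l) (U : OG N) =>
    (f ((V' : OG N) * (R * U)) - f ((V' : OG N) * U)) ^ 2) ?_
  have h1 : Continuous fun p : Hs N l × OG N => (p.1 : OG N) :=
    continuous_subtype_val.comp continuous_fst
  have h2 : Continuous fun p : Hs N l × OG N => R * p.2 := continuous_const.mul continuous_snd
  exact ((hf.comp (h1.mul h2)).sub (hf.comp (h1.mul continuous_snd))).pow 2

/-- Bound of one increment. -/
lemma increment_bound (hN : 0 < N) (β : ℝ) {lam : Fin N → ℝ} {D : ℝ}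
    (hD : ∀ i j, |lam i - lam j| ≤ D) (k : Fin N) (hk : (k : ℕ) + 1 < N) :
    ∫ U, (avg (Hs N (k + 1)) (prs β lam) U - avg (Hs N k) (prs β lam) U) ^ 2 ∂(haarO N) ≤
      2 * β ^ 2 * Real.pi ^ 2 * D ^ 2 * wt β lam k / (N * ((N : ℝ) - k - 1)) := by
  have hNR : (0 : ℝ) < N := by exact_mod_cast hN
  have hpos : (0 : ℝ) < (N : ℝ) - k - 1 := by
    have : ((k : ℕ) : ℝ) + 1 < N := by exact_mod_cast hk
    linarith
  have hcf := continuous_prs β lam
  apply increment_le (haarO N) (Hs_anti (Nat.le_succ _)) hcf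
  intro V
  obtain ⟨w, θ, hw, hw0, hθ0, hθπ, hmem⟩ := coset_rep hk V.2
  have hwk : w k = 0 := hw0 k le_rfl
  set R := Rot k w θ with hR
  -- reduction to the rotation
  have hred : ∀ U : OG N, avg (Hs N (k + 1)) (prs β lam) ((V : OG N) * U) =
      avg (Hs N (k + 1)) (prs β lam) (R * U) := by
    intro U
    have h1 : (V : OG N) * U = ((⟨(V : OG N) * R⁻¹, hmem⟩ : Hs N (k + 1)) : OG N) * (R * U) := by
      simp only
      group
    rw [h1, avg_inv]
  simp_rw [hred]
  have hconj : ∀ (V' : Hs N (k + 1)) (U : OG N), (V' : OG N) * (R * U) =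
      Rot k (((V' : OG N) : Matrix (Fin N) (Fin N) ℝ) *ᵥ w) θ * ((V' : OG N) * U) := by
    intro V' U
    rw [← mul_assoc, ← mul_assoc, hR, conj_Rot hw hwk V'.2]
  -- pointwise Jensen
  have hc1 : Continuous fun p : OG N × Hs N (k + 1) =>
      (prs β lam ((p.2 : OG N) * (R * p.1)) - prs β lam ((p.2 : OG N) * p.1)) ^ 2 :=
    ((hcf.comp (by fun_prop)).sub (hcf.comp (by fun_prop))).pow 2
  have hpt : ∀ U : OG N, (avg (Hs N (k + 1)) (prs β lam) (R * U) -
      avg (Hs N (k + 1)) (prs β lam) U) ^ 2 ≤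
      ∫ V' : Hs N (k + 1), (prs β lam ((V' : OG N) * (R * U)) - prs β lam ((V' : OG N) * U)) ^ 2
        ∂(haarP (Hs N (k + 1))) := by
    intro U
    unfold avg
    have hi1 : Continuous fun V' : Hs N (k + 1) => prs β lam ((V' : OG N) * (R * U)) :=
      hcf.comp (by fun_prop)
    have hi2 : Continuous fun V' : Hs N (k + 1) => prs β lam ((V' : OG N) * U) :=
      hcf.comp (by fun_prop)
    rw [← integral_sub (intble _ hi1) (intble _ hi2)]
    exact sq_integral_le _ (hi1.sub hi2)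
  have hcavg : Continuous (avg (Hs N (k + 1)) (prs β lam)) := avg_continuous hcf
  have hw' : ∀ V' : Hs N (k + 1), ip (((V' : OG N) : Matrix (Fin N) (Fin N) ℝ) *ᵥ w)
      (((V' : OG N) : Matrix (Fin N) (Fin N) ℝ) *ᵥ w) = 1 := fun V' => by rw [ip_mulVec, hw]
  have hwk' : ∀ V' : Hs N (k + 1), (((V' : OG N) : Matrix (Fin N) (Fin N) ℝ) *ᵥ w) k = 0 :=
    fun V' => by rw [Hs_coord V'.2 w (Nat.lt_succ_self _), hwk]
  have hcD : Continuous fun V' : Hs N (k + 1) =>
      ∫ U, (prs β lam ((V' : OG N) * (R * U)) - prs β lam ((V' : OG N) * U)) ^ 2 ∂(haarO N) :=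
    diff_cont R hcf
  have hD' : ∀ V' : Hs N (k + 1),
      ∫ U, (prs β lam ((V' : OG N) * (R * U)) - prs β lam ((V' : OG N) * U)) ^ 2 ∂(haarO N) =
      Dsq β lam k (((V' : OG N) : Matrix (Fin N) (Fin N) ℝ) *ᵥ w) θ := by
    intro V'
    simp_rw [hconj V']
    exact integral_mul_left_eq_self (μ := haarO N)
      (fun U => (prs β lam (Rot k (((V' : OG N) : Matrix (Fin N) (Fin N) ℝ) *ᵥ w) θ * U) -
        prs β lam U) ^ 2) (V' : OG N)
  calc ∫ U, (avg (Hs N (k + 1)) (prs β lam) (R * U) -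
      avg (Hs N (k + 1)) (prs β lam) U) ^ 2 ∂(haarO N)
      ≤ ∫ U, ∫ V' : Hs N (k + 1), (prs β lam ((V' : OG N) * (R * U)) -
        prs β lam ((V' : OG N) * U)) ^ 2 ∂(haarP (Hs N (k + 1))) ∂(haarO N) := by
        refine integral_mono (intble _ (((hcavg.comp (by fun_prop)).sub hcavg).pow 2))
          (intble _ ?_) hpt
        exact continuous_param _ hc1
    _ = ∫ V' : Hs N (k + 1), ∫ U, (prs β lam ((V' : OG N) * (R * U)) -
        prs β lam ((V' : OG N) * U)) ^ 2 ∂(haarO N) ∂(haarP (Hs N (k + 1))) :=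
        swap_int _ _ hc1
    _ ≤ ∫ V' : Hs N (k + 1), (2 * β ^ 2 * θ ^ 2 / (N : ℝ) ^ 2) *
        Qf β lam k (((V' : OG N) : Matrix (Fin N) (Fin N) ℝ) *ᵥ w)
        ∂(haarP (Hs N (k + 1))) := by
        refine integral_mono (intble _ hcD) (intble _
          (continuous_const.mul (continuous_Qf β lam k (k + 1) w))) ?_
        intro V'
        have := Dsq_le hN β lam (hw' V') (hwk' V') θ
        simp only
        rw [hD' V', div_mul_eq_mul_div, le_div_iff₀ (by positivity)]
        linarith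
    _ ≤ (2 * β ^ 2 * θ ^ 2 / (N : ℝ) ^ 2) * ((D ^ 2 * N / ((N : ℝ) - k - 1)) * wt β lam k) := by
        rw [integral_const_mul]
        exact mul_le_mul_of_nonneg_left (avg_Qf β hD k hk hw hw0) (by positivity)
    _ ≤ (2 * β ^ 2 * Real.pi ^ 2 / (N : ℝ) ^ 2) *
        ((D ^ 2 * N / ((N : ℝ) - k - 1)) * wt β lam k) := by
        have := wt_nonneg β lam k
        gcongr
    _ = 2 * β ^ 2 * Real.pi ^ 2 * D ^ 2 * wt β lam k / (N * ((N : ℝ) - k - 1)) := by
        field_simp

/-- The pressure only depends on the squares of the rotated spins, hence it is invariant under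
the last stabilizer. -/
lemma prs_inv_last (hN : 0 < N) (β : ℝ) (lam : Fin N → ℝ) (V : Hs N (N - 1)) (U : OG N) :
    prs β lam ((V : OG N) * U) = prs β lam U := by
  unfold prs
  rw [pressure_coupling, pressure_coupling]
  have hen : en β lam ((V : OG N) * U) = en β lam U := by
    funext σ
    unfold en
    congr 1
    have hco : ∀ i : Fin N, (i : ℕ) < N - 1 → rot ((V : OG N) * U) σ i = rot U σ i := by
      intro i hi
      rw [rot_mul, Hs_coord V.2 _ hi]
    have hlast : ∀ i : Fin N, rot ((V : OG N) * U) σ i ^ 2 = rot U σ i ^ 2 := by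
      intro i
      by_cases hi : (i : ℕ) < N - 1
      · rw [hco i hi]
      · have h1 := rot_sq_sum ((V : OG N) * U) σ
        have h2 := rot_sq_sum U σ
        rw [← h2, ← Finset.add_sum_erase _ _ (Finset.mem_univ i),
          ← Finset.add_sum_erase _ _ (Finset.mem_univ i)] at h1
        have h3 : ∑ j ∈ univ.erase i, rot ((V : OG N) * U) σ j ^ 2 =
            ∑ j ∈ univ.erase i, rot U σ j ^ 2 := by
          refine Finset.sum_congr rfl fun j hj => ?_
          have hji : j ≠ i := (Finset.mem_erase.1 hj).1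
          have : (j : ℕ) < N - 1 := by
            have hj' := j.2
            have : (j : ℕ) ≠ i := fun h => hji (Fin.ext h)
            omega
          rw [hco j this]
        linarith
    exact Finset.sum_congr rfl fun i _ => by rw [hlast i]
  rw [hen]

lemma avg_last (hN : 0 < N) (β : ℝ) (lam : Fin N → ℝ) (U : OG N) :
    avg (Hs N (N - 1)) (prs β lam) U = prs β lam U := by
  unfold avg
  simp_rw [fun V => prs_inv_last hN β lam V U]
  simp

lemma avg_first (β : ℝ) (lam : Fin N → ℝ) (U : OG N) :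
    avg (Hs N 0) (prs β lam) U = meanPressure β lam := by
  have hall : ∀ V : OG N, V ∈ Hs N 0 := fun V i hi => absurd hi (Nat.not_lt_zero _)
  have hconst : ∀ U : OG N, avg (Hs N 0) (prs β lam) U = avg (Hs N 0) (prs β lam) 1 := by
    intro U
    have := avg_inv (H := Hs N 0) (f := prs β lam) ⟨U, hall U⟩ 1
    rwa [mul_one] at this
  have h1 := integral_avg_mul (H := Hs N 0) (haarO N) (continuous_prs β lam)
    (continuous_const (y := (1 : ℝ))) (fun _ _ => rfl)
  simp only [mul_one] at h1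
  simp_rw [hconst] at h1
  simp only [integral_const, probReal_univ, smul_eq_mul, one_mul] at h1
  rw [hconst, h1]
  rfl

/-- Variance decomposition. -/
lemma variance_decomp (hN : 0 < N) (β : ℝ) (lam : Fin N → ℝ) :
    ∫ U, (prs β lam U - meanPressure β lam) ^ 2 ∂(haarO N) =
      ∑ k ∈ range (N - 1), ∫ U, (avg (Hs N (k + 1)) (prs β lam) U -
        avg (Hs N k) (prs β lam) U) ^ 2 ∂(haarO N) := by
  have hcf := continuous_prs β lam
  have h1 : ∀ k : ℕ, ∫ U, (avg (Hs N (k + 1)) (prs β lam) U -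
        avg (Hs N k) (prs β lam) U) ^ 2 ∂(haarO N) =
      ∫ U, avg (Hs N (k + 1)) (prs β lam) U ^ 2 ∂(haarO N) -
      ∫ U, avg (Hs N k) (prs β lam) U ^ 2 ∂(haarO N) := fun k =>
    integral_sub_sq (haarO N) (Hs_anti (Nat.le_succ _)) hcf
  simp_rw [h1]
  rw [Finset.sum_range_sub (fun k : ℕ => ∫ U, avg (Hs N k) (prs β lam) U ^ 2 ∂(haarO N))]
  rw [← integral_sub_sq (haarO N) (Hs_anti (Nat.zero_le _)) hcf]
  simp_rw [avg_last hN, avg_first]

end Vale.Agent.P166
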