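import Vale.Agent.P166.Moment
import Vale.Agent.P166.Majorize

/-!
Effect of a plane rotation on the pressure, in mean square.
-/

open MeasureTheory Topology Matrix Finset

set_option linter.unusedSectionVars false

namespace Vale.Agent.P166

variable {N : ℕ}

/-- The pressure as a function of the rotation. -/
noncomputable def prs (β : ℝ) (lam : Fin N → ℝ) (U : OG N) : ℝ := pressure β (coupling lam U)

lemma press_diff_sq (hN : 0 < N) (β : ℝ) (lam : Fin N → ℝ) (U U' : OG N) :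
    (N : ℝ) ^ 2 * (prs β lam U' - prs β lam U) ^ 2 ≤
      gibbs (en β lam U) (fun σ => (en β lam U' σ - en β lam U σ) ^ 2) +
      gibbs (en β lam U') (fun σ => (en β lam U' σ - en β lam U σ) ^ 2) := by
  have hNR : (0 : ℝ) < N := by exact_mod_cast hN
  unfold prs
  rw [pressure_coupling, pressure_coupling]
  set d := Real.log (Zf (en β lam U')) - Real.log (Zf (en β lam U)) with hd
  have h1 : (N : ℝ) ^ 2 * ((1 / (N : ℝ)) * (Real.log (Zf (en β lam U')) - N * Real.log 2) -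
      (1 / (N : ℝ)) * (Real.log (Zf (en β lam U)) - N * Real.log 2)) ^ 2 = d ^ 2 := by
    rw [hd]; field_simp; ring
  rw [h1]
  have h2 := gibbs_le_log_sub (en β lam U) (en β lam U')
  have h3 := gibbs_le_log_sub (en β lam U') (en β lam U)
  have h4 : gibbs (en β lam U') (fun σ => en β lam U σ - en β lam U' σ) =
      - gibbs (en β lam U') (fun σ => en β lam U' σ - en β lam U σ) := by
    have : (fun σ => en β lam U σ - en β lam U' σ) =
        fun σ => (-1) * (en β lam U' σ - en β lam U σ) := by funext σ; ring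
    rw [this, gibbs_const_mul]; ring
  rw [h4] at h3
  have h5 := gibbs_sq_le (en β lam U) (fun σ => en β lam U' σ - en β lam U σ)
  have h6 := gibbs_sq_le (en β lam U') (fun σ => en β lam U' σ - en β lam U σ)
  set g := gibbs (en β lam U) (fun σ => en β lam U' σ - en β lam U σ)
  set g' := gibbs (en β lam U') (fun σ => en β lam U' σ - en β lam U σ)
  have h7 : d ≤ g' := by linarith
  have h8 : g ≤ d := h2
  have h9 : d ^ 2 ≤ g ^ 2 + g' ^ 2 := by
    rcases le_or_gt 0 d with h | h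
    · nlinarith [sq_nonneg g]
    · nlinarith [sq_nonneg g']
  linarith

/-- The linear coefficient of the energy change under rotation. -/
noncomputable def Lf (lam : Fin N → ℝ) (k : Fin N) (w : Fin N → ℝ) (y : Fin N → ℝ) : ℝ :=
  y k * ∑ i, w i * ((lam k - lam i) * y i)

/-- Energy change `∑ λ_i ((Ry)_i² - y_i²)`. -/
noncomputable def Xf (lam : Fin N → ℝ) (k : Fin N) (w : Fin N → ℝ) (h : ℝ) (y : Fin N → ℝ) : ℝ :=
  ∑ i, lam i * ((Rmat k w h *ᵥ y) i ^ 2 - y i ^ 2)

lemma Xf_eq (lam : Fin N → ℝ) {k : Fin N} {w : Fin N → ℝ} (hwk : w k = 0) (h : ℝ)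
    (y : Fin N → ℝ) :
    Xf lam k w h y = lam k * (2 * y k * ((Real.cos h - 1) * y k + Real.sin h * ip w y) +
      ((Real.cos h - 1) * y k + Real.sin h * ip w y) ^ 2) +
      2 * ((Real.cos h - 1) * ip w y - Real.sin h * y k) * (∑ i, lam i * (w i * y i)) +
      ((Real.cos h - 1) * ip w y - Real.sin h * y k) ^ 2 * (∑ i, lam i * (w i * w i)) := by
  unfold Xf
  set α := (Real.cos h - 1) * y k + Real.sin h * ip w y with hα
  set γ := (Real.cos h - 1) * ip w y - Real.sin h * y k with hγ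
  have h1 : ∀ i, lam i * ((Rmat k w h *ᵥ y) i ^ 2 - y i ^ 2) =
      dl k i * (lam i * (2 * y i * α + α ^ 2)) + 2 * γ * (lam i * (w i * y i)) +
      γ ^ 2 * (lam i * (w i * w i)) := by
    intro i
    rw [Rmat_mulVec, ← hα, ← hγ]
    by_cases hi : i = k
    · subst hi
      simp only [dl, if_true, hwk]; ring
    · simp only [dl, if_neg hi]; ring
  simp_rw [h1]
  rw [Finset.sum_add_distrib, Finset.sum_add_distrib, ← Finset.mul_sum, ← Finset.mul_sum]
  have h2 : ∑ i, dl k i * (lam i * (2 * y i * α + α ^ 2)) = lam k * (2 * y k * α + α ^ 2) :=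
    dl_ip (fun i => lam i * (2 * y i * α + α ^ 2)) k
  rw [h2]

lemma abs_sin_sub_le {h : ℝ} (hh : |h| ≤ 1) : |Real.sin h - h| ≤ h ^ 2 / 2 := by
  have h1 := Real.sin_bound hh
  have h0 := abs_nonneg h
  have h2 : |h| ^ 5 ≤ |h| ^ 2 := pow_le_pow_of_le_one h0 hh (by norm_num)
  have h3 : |h| ^ 3 ≤ |h| ^ 2 := pow_le_pow_of_le_one h0 hh (by norm_num)
  have h4 : |Real.sin h - h| ≤ |Real.sin h - (h - h ^ 3 / 6)| + |h| ^ 3 / 6 := by
    have : Real.sin h - h = (Real.sin h - (h - h ^ 3 / 6)) + (- (h ^ 3) / 6) := by ring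
    rw [this]
    refine (abs_add_le _ _).trans ?_
    rw [abs_div, abs_neg, abs_pow]
    norm_num
  rw [← sq_abs h]
  have h6 : 0 ≤ |h| ^ 2 := by positivity
  linarith

lemma abs_cos_sub_le (h : ℝ) : |Real.cos h - 1| ≤ h ^ 2 / 2 := by
  rw [abs_sub_comm, abs_of_nonneg (by linarith [Real.cos_le_one h])]
  linarith [Real.one_sub_sq_div_two_le_cos (x := h)]

lemma numeric_bound {a b S1 S2 lk c s h B M : ℝ} (hB : 0 ≤ B) (hM : 0 ≤ M)
    (ha : |a| ≤ B) (hb : |b| ≤ B) (hS1 : |S1| ≤ M * B) (hS2 : |S2| ≤ M) (hlk : |lk| ≤ M)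
    (hh : |h| ≤ 1) (hc : |c| ≤ h ^ 2 / 2) (hs : |s - h| ≤ h ^ 2 / 2) :
    |lk * (2 * a * (c * a + s * b) + (c * a + s * b) ^ 2) + 2 * (c * b - s * a) * S1 +
      (c * b - s * a) ^ 2 * S2 - 2 * h * (a * (lk * b - S1))| ≤ 12 * M * B ^ 2 * h ^ 2 := by
  have hhabs : h ^ 2 ≤ |h| := by rw [← sq_abs]; nlinarith [abs_nonneg h]
  have hs' : |s| ≤ |h| + h ^ 2 / 2 := by
    have : s = h + (s - h) := by ring
    rw [this]; exact (abs_add_le _ _).trans (by linarith)
  have hcs : |c| + |s| ≤ 2 * |h| := by linarith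
  have hcs0 : 0 ≤ |c| + |s| := by positivity
  have hα : |c * a + s * b| ≤ 2 * |h| * B := by
    calc |c * a + s * b| ≤ |c| * |a| + |s| * |b| := by
          refine (abs_add_le _ _).trans ?_
          rw [abs_mul, abs_mul]
      _ ≤ |c| * B + |s| * B := by gcongr
      _ = (|c| + |s|) * B := by ring
      _ ≤ 2 * |h| * B := by gcongr
  have hγ : |c * b - s * a| ≤ 2 * |h| * B := by
    calc |c * b - s * a| ≤ |c| * |b| + |s| * |a| := by
          refine (abs_sub _ _).trans ?_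
          rw [abs_mul, abs_mul]
      _ ≤ |c| * B + |s| * B := by gcongr
      _ = (|c| + |s|) * B := by ring
      _ ≤ 2 * |h| * B := by gcongr
  have h2 : (2 * |h| * B) ^ 2 = 4 * h ^ 2 * B ^ 2 := by
    rw [mul_pow, mul_pow, sq_abs]; ring
  have hα2 : |(c * a + s * b) ^ 2| ≤ 4 * h ^ 2 * B ^ 2 := by
    rw [abs_pow, ← h2]; gcongr
  have hγ2 : |(c * b - s * a) ^ 2| ≤ 4 * h ^ 2 * B ^ 2 := by
    rw [abs_pow, ← h2]; gcongr
  have e : lk * (2 * a * (c * a + s * b) + (c * a + s * b) ^ 2) + 2 * (c * b - s * a) * S1 +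
      (c * b - s * a) ^ 2 * S2 - 2 * h * (a * (lk * b - S1)) =
      (2 * (lk * (c * (a * a))) + 2 * (lk * ((s - h) * (a * b)))) + lk * (c * a + s * b) ^ 2 +
      (2 * (c * (b * S1)) + (- (2 * ((s - h) * (a * S1))))) + (c * b - s * a) ^ 2 * S2 := by ring
  rw [e]
  have t1 : |2 * (lk * (c * (a * a)))| ≤ 2 * (M * (h ^ 2 / 2 * (B * B))) := by
    rw [abs_mul, abs_mul, abs_mul, abs_mul, abs_two]; gcongr
  have t2 : |2 * (lk * ((s - h) * (a * b)))| ≤ 2 * (M * (h ^ 2 / 2 * (B * B))) := by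
    rw [abs_mul, abs_mul, abs_mul, abs_mul, abs_two]; gcongr
  have t3 : |lk * (c * a + s * b) ^ 2| ≤ M * (4 * h ^ 2 * B ^ 2) := by
    rw [abs_mul]; gcongr
  have t4 : |2 * (c * (b * S1))| ≤ 2 * (h ^ 2 / 2 * (B * (M * B))) := by
    rw [abs_mul, abs_mul, abs_mul, abs_two]; gcongr
  have t5 : |(- (2 * ((s - h) * (a * S1))))| ≤ 2 * (h ^ 2 / 2 * (B * (M * B))) := by
    rw [abs_neg, abs_mul, abs_mul, abs_mul, abs_two]; gcongr
  have t6 : |(c * b - s * a) ^ 2 * S2| ≤ (4 * h ^ 2 * B ^ 2) * M := by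
    rw [abs_mul]; gcongr
  calc _ ≤ |2 * (lk * (c * (a * a)))| + |2 * (lk * ((s - h) * (a * b)))| +
        |lk * (c * a + s * b) ^ 2| + (|2 * (c * (b * S1))| + |(- (2 * ((s - h) * (a * S1))))|) +
        |(c * b - s * a) ^ 2 * S2| := by
        refine (abs_add_le _ _).trans (add_le_add ?_ le_rfl)
        refine (abs_add_le _ _).trans (add_le_add ?_ (abs_add_le _ _))
        refine (abs_add_le _ _).trans (add_le_add (abs_add_le _ _) le_rfl)
    _ ≤ _ := by nlinarith [t1, t2, t3, t4, t5, t6]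

lemma ip_sq_le (x y : Fin N → ℝ) : ip x y ^ 2 ≤ ip x x * ip y y := by
  have := Finset.sum_mul_sq_le_sq_mul_sq univ x y
  unfold ip
  refine this.trans (le_of_eq ?_)
  congr 1 <;> exact Finset.sum_congr rfl fun i _ => by ring

/-- Quadratic error bound for the energy change under a small rotation. -/
lemma Xf_bound {lam : Fin N → ℝ} {M : ℝ} (hM : ∀ i, |lam i| ≤ M) {k : Fin N} {w : Fin N → ℝ}
    (hw : ip w w = 1) (hwk : w k = 0) {h : ℝ} (hh : |h| ≤ 1) {y : Fin N → ℝ}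
    (hy : ip y y = N) :
    |Xf lam k w h y - 2 * h * Lf lam k w y| ≤ 12 * M * N * h ^ 2 := by
  have hM0 : 0 ≤ M := (abs_nonneg _).trans (hM k)
  set B := Real.sqrt N with hB
  have hB0 : 0 ≤ B := Real.sqrt_nonneg _
  have hB2 : B ^ 2 = N := Real.sq_sqrt (Nat.cast_nonneg N)
  have hyk : |y k| ≤ B := by
    apply Real.le_sqrt_of_sq_le
    rw [sq_abs, ← hy, sq]
    exact Finset.single_le_sum (f := fun i => y i * y i) (fun i _ => mul_self_nonneg _)
      (Finset.mem_univ k)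
  have hb : |ip w y| ≤ B := by
    apply Real.le_sqrt_of_sq_le
    rw [sq_abs]
    refine (ip_sq_le w y).trans (le_of_eq ?_)
    rw [hw, hy, one_mul]
  have hS1 : |∑ i, lam i * (w i * y i)| ≤ M * B := by
    have h1 : (∑ i, lam i * (w i * y i)) = ip (fun i => lam i * w i) y := by
      unfold ip; exact Finset.sum_congr rfl fun i _ => by ring
    have h2 : ip (fun i => lam i * w i) (fun i => lam i * w i) ≤ M ^ 2 := by
      have : M ^ 2 = ∑ i, M ^ 2 * (w i * w i) := by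
        rw [← Finset.mul_sum]
        change M ^ 2 = M ^ 2 * ip w w
        rw [hw, mul_one]
      rw [this]
      unfold ip
      refine Finset.sum_le_sum fun i _ => ?_
      have h3 : lam i ^ 2 ≤ M ^ 2 := by
        rw [← sq_abs]; gcongr; exact hM i
      have : lam i * w i * (lam i * w i) = lam i ^ 2 * (w i * w i) := by ring
      rw [this]
      exact mul_le_mul_of_nonneg_right h3 (mul_self_nonneg _)
    rw [h1]
    apply abs_le_of_sq_le_sq _ (by positivity)
    refine (ip_sq_le _ _).trans ?_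
    rw [hy, mul_pow, hB2]
    gcongr
  have hS2 : |∑ i, lam i * (w i * w i)| ≤ M := by
    refine (Finset.abs_sum_le_sum_abs _ _).trans ?_
    have : M = ∑ i, M * (w i * w i) := by
      rw [← Finset.mul_sum]
      change M = M * ip w w
      rw [hw, mul_one]
    calc ∑ i, |lam i * (w i * w i)| ≤ ∑ i, M * (w i * w i) := by
          refine Finset.sum_le_sum fun i _ => ?_
          rw [abs_mul, abs_mul_self]
          exact mul_le_mul_of_nonneg_right (hM i) (mul_self_nonneg _)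
      _ = M := this.symm
  have hL : Lf lam k w y = y k * (lam k * ip w y - ∑ i, lam i * (w i * y i)) := by
    have : ∑ i, w i * ((lam k - lam i) * y i) =
        lam k * ip w y - ∑ i, lam i * (w i * y i) := by
      unfold ip
      rw [Finset.mul_sum, ← Finset.sum_sub_distrib]
      exact Finset.sum_congr rfl fun i _ => by ring
    rw [Lf, this]
  rw [Xf_eq lam hwk, hL, ← hB2]
  exact numeric_bound hB0 hM0 hyk hb hS1 hS2 (hM k) hh (abs_cos_sub_le h) (abs_sin_sub_le hh)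

lemma Lf_bound {lam : Fin N → ℝ} {M : ℝ} (hM : ∀ i, |lam i| ≤ M) {k : Fin N} {w : Fin N → ℝ}
    (hw : ip w w = 1) {y : Fin N → ℝ} (hy : ip y y = N) :
    |Lf lam k w y| ≤ 2 * M * N := by
  have hM0 : 0 ≤ M := (abs_nonneg _).trans (hM k)
  set B := Real.sqrt N with hB
  have hB0 : 0 ≤ B := Real.sqrt_nonneg _
  have hB2 : B ^ 2 = N := Real.sq_sqrt (Nat.cast_nonneg N)
  have hyk : |y k| ≤ B := by
    apply Real.le_sqrt_of_sq_le
    rw [sq_abs, ← hy, sq]
    exact Finset.single_le_sum (f := fun i => y i * y i) (fun i _ => mul_self_nonneg _)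
      (Finset.mem_univ k)
  have h1 : |∑ i, w i * ((lam k - lam i) * y i)| ≤ 2 * M * B := by
    apply abs_le_of_sq_le_sq _ (by positivity)
    change (ip w (fun i => (lam k - lam i) * y i)) ^ 2 ≤ _
    refine (ip_sq_le _ _).trans ?_
    rw [hw, one_mul, mul_pow, hB2, ← hy]
    unfold ip
    rw [Finset.mul_sum]
    refine Finset.sum_le_sum fun i _ => ?_
    have h2 : (lam k - lam i) ^ 2 ≤ (2 * M) ^ 2 := by
      rw [← sq_abs]
      gcongr
      refine (abs_sub _ _).trans ?_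
      linarith [hM k, hM i]
    have : (lam k - lam i) * y i * ((lam k - lam i) * y i) =
        (lam k - lam i) ^ 2 * (y i * y i) := by ring
    rw [this]
    exact mul_le_mul_of_nonneg_right h2 (mul_self_nonneg _)
  unfold Lf
  rw [abs_mul]
  calc |y k| * |∑ i, w i * ((lam k - lam i) * y i)| ≤ B * (2 * M * B) := by gcongr
    _ = 2 * M * B ^ 2 := by ring
    _ = 2 * M * N := by rw [hB2]

lemma Xf_sq_bound {lam : Fin N → ℝ} {M : ℝ} (hM : ∀ i, |lam i| ≤ M) {k : Fin N} {w : Fin N → ℝ}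
    (hw : ip w w = 1) (hwk : w k = 0) {h : ℝ} (hh : |h| ≤ 1) {y : Fin N → ℝ}
    (hy : ip y y = N) :
    Xf lam k w h y ^ 2 ≤ 4 * h ^ 2 * Lf lam k w y ^ 2 + 240 * M ^ 2 * N ^ 2 * |h| ^ 3 := by
  have hM0 : 0 ≤ M := (abs_nonneg _).trans (hM k)
  have h1 := Xf_bound hM hw hwk hh hy
  have h2 := Lf_bound hM (k := k) hw hy
  set X := Xf lam k w h y
  set L := Lf lam k w y
  set r := X - 2 * h * L with hr
  have hX : X = 2 * h * L + r := by rw [hr]; ring
  have h0 := abs_nonneg h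
  have e1 : X ^ 2 = 4 * h ^ 2 * L ^ 2 + (4 * h * L * r + r ^ 2) := by rw [hX]; ring
  have hMN : 0 ≤ M * N := by positivity
  have e2 : 4 * h * L * r ≤ 4 * |h| * (2 * M * N) * (12 * M * N * h ^ 2) := by
    refine (le_abs_self _).trans ?_
    rw [abs_mul, abs_mul, abs_mul]
    have : |(4 : ℝ)| = 4 := by norm_num
    rw [this]
    gcongr
  have e3 : r ^ 2 ≤ (12 * M * N * h ^ 2) ^ 2 := by
    rw [← sq_abs]; gcongr
  have e4 : h ^ 2 = |h| ^ 2 := (sq_abs h).symm
  have e5 : |h| ^ 4 ≤ |h| ^ 3 := pow_le_pow_of_le_one h0 hh (by norm_num)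
  have e6 : 4 * |h| * (2 * M * N) * (12 * M * N * h ^ 2) = 96 * (M * N) ^ 2 * |h| ^ 3 := by
    rw [e4]; ring
  have e7 : (12 * M * N * h ^ 2) ^ 2 = 144 * (M * N) ^ 2 * |h| ^ 4 := by rw [e4]; ring
  have e8 : 144 * (M * N) ^ 2 * |h| ^ 4 ≤ 144 * (M * N) ^ 2 * |h| ^ 3 := by gcongr
  have e9 : 240 * M ^ 2 * N ^ 2 * |h| ^ 3 = 96 * (M * N) ^ 2 * |h| ^ 3 +
      144 * (M * N) ^ 2 * |h| ^ 3 := by ring
  rw [e1, e9]
  linarith

end Vale.Agent.P166
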