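import Vale.Agent.P166.SelfAvg

/-!
The explicit variance bound for the pressure.
-/

open MeasureTheory Topology Matrix Finset

set_option linter.unusedSectionVars false

namespace Vale.Agent.P166

variable {N : ℕ}

lemma prs_perm (β : ℝ) (lam : Fin N → ℝ) (π : Equiv.Perm (Fin N)) (U : OG N) :
    prs β lam (spm 1 π⁻¹ * U) = prs β (fun i => lam (π i)) U := by
  unfold prs
  rw [pressure_coupling, pressure_coupling, en_spm]
  rfl

lemma variance_perm (β : ℝ) (lam : Fin N → ℝ) (π : Equiv.Perm (Fin N)) :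
    ∫ U, (prs β (fun i => lam (π i)) U - meanPressure β (fun i => lam (π i))) ^ 2 ∂(haarO N) =
      ∫ U, (prs β lam U - meanPressure β lam) ^ 2 ∂(haarO N) := by
  rw [meanPressure_perm]
  rw [← integral_mul_left_eq_self (μ := haarO N)
    (fun U => (prs β lam U - meanPressure β lam) ^ 2) (spm 1 π⁻¹)]
  congr 1
  funext U
  rw [prs_perm]

lemma prs_zero (lam : Fin N → ℝ) (U : OG N) : prs 0 lam U = 0 := by
  unfold prs
  rw [pressure_coupling]
  have : Zf (en 0 lam U) = 2 ^ N := by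
    simp [Zf, en, Finset.card_univ]
  rw [this]
  simp

lemma wt_le_div {β : ℝ} (hβ : 0 < β) {lam : Fin N → ℝ} (hlam : Antitone lam) (k : Fin N) :
    wt β lam k ≤ N / ((k : ℝ) + 1) := by
  rw [le_div_iff₀ (by positivity)]
  have h1 : ∑ i ∈ Finset.Iic k, wt β lam k ≤ ∑ i ∈ Finset.Iic k, wt β lam i :=
    Finset.sum_le_sum fun i hi => wt_anti hβ hlam (Finset.mem_Iic.1 hi)
  have h2 : ∑ i ∈ Finset.Iic k, wt β lam i ≤ ∑ i, wt β lam i :=
    Finset.sum_le_sum_of_subset_of_nonneg (Finset.subset_univ _) fun i _ _ => wt_nonneg β lam i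
  rw [wt_sum] at h2
  rw [Finset.sum_const, Fin.card_Iic, nsmul_eq_mul] at h1
  push_cast at h1
  linarith

lemma variance_le_antitone (hN : 0 < N) {β : ℝ} (hβ : 0 < β) {lam : Fin N → ℝ} {D : ℝ}
    (hD : ∀ i j, |lam i - lam j| ≤ D) (hlam : Antitone lam) :
    ∫ U, (prs β lam U - meanPressure β lam) ^ 2 ∂(haarO N) ≤
      4 * Real.pi ^ 2 * β ^ 2 * D ^ 2 * (1 + Real.log N) / N := by
  have hNR : (0 : ℝ) < N := by exact_mod_cast hN
  rw [variance_decomp hN]
  set C := 2 * β ^ 2 * Real.pi ^ 2 * D ^ 2 / N with hC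
  have hC0 : 0 ≤ C := by positivity
  have hterm : ∀ k ∈ range (N - 1), ∫ U, (avg (Hs N (k + 1)) (prs β lam) U -
        avg (Hs N k) (prs β lam) U) ^ 2 ∂(haarO N) ≤
      C * (((k : ℝ) + 1)⁻¹ + (((N - 1 - 1 - k : ℕ) : ℝ) + 1)⁻¹) := by
    intro k hk
    rw [Finset.mem_range] at hk
    have hkN : k + 1 < N := by omega
    have h1 := increment_bound hN β hD (⟨k, by omega⟩ : Fin N) hkN
    have h2 := wt_le_div hβ hlam (⟨k, by omega⟩ : Fin N)
    simp only at h1 h2
    have hcast : ((N - 1 - 1 - k : ℕ) : ℝ) + 1 = (N : ℝ) - k - 1 := by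
      have : (N - 1 - 1 - k) + 1 + (k + 1) = N := by omega
      have h3 : (((N - 1 - 1 - k : ℕ) : ℝ) + 1 + (k + 1)) = N := by exact_mod_cast this
      linarith
    rw [hcast]
    have hpos : (0 : ℝ) < (N : ℝ) - k - 1 := by
      have : ((k : ℕ) : ℝ) + 1 < N := by exact_mod_cast hkN
      linarith
    refine h1.trans ?_
    calc 2 * β ^ 2 * Real.pi ^ 2 * D ^ 2 * wt β lam ⟨k, _⟩ / (N * ((N : ℝ) - k - 1))
        ≤ 2 * β ^ 2 * Real.pi ^ 2 * D ^ 2 * (N / ((k : ℝ) + 1)) / (N * ((N : ℝ) - k - 1)) := by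
          gcongr
      _ = C * (((k : ℝ) + 1)⁻¹ + ((N : ℝ) - k - 1)⁻¹) := by
          rw [hC]
          field_simp
          ring
  refine (Finset.sum_le_sum hterm).trans ?_
  rw [← Finset.mul_sum, Finset.sum_add_distrib]
  have hrefl : ∑ k ∈ range (N - 1), (((N - 1 - 1 - k : ℕ) : ℝ) + 1)⁻¹ =
      ∑ k ∈ range (N - 1), ((k : ℝ) + 1)⁻¹ :=
    Finset.sum_range_reflect (fun k : ℕ => ((k : ℝ) + 1)⁻¹) (N - 1)
  rw [hrefl]
  have hharm : ∑ k ∈ range (N - 1), ((k : ℝ) + 1)⁻¹ ≤ 1 + Real.log N := by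
    have h1 : ∑ k ∈ range (N - 1), ((k : ℝ) + 1)⁻¹ ≤ ∑ k ∈ range N, ((k : ℝ) + 1)⁻¹ :=
      Finset.sum_le_sum_of_subset_of_nonneg
        (Finset.range_mono (Nat.sub_le _ _)) fun i _ _ => by positivity
    have h2 := harmonic_le_one_add_log N
    unfold harmonic at h2
    push_cast at h2
    exact h1.trans h2
  have e : 4 * Real.pi ^ 2 * β ^ 2 * D ^ 2 * (1 + Real.log N) / N =
      C * ((1 + Real.log N) + (1 + Real.log N)) := by rw [hC]; ring
  rw [e]
  gcongr

/-- **Self-averaging** with an explicit rate: for every spectrum `lam`, every `β ≥ 0`. -/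
theorem variance_le (hN : 0 < N) {β : ℝ} (hβ : 0 ≤ β) (lam : Fin N → ℝ) {D : ℝ}
    (hD : ∀ i j, |lam i - lam j| ≤ D) :
    ∫ U, (prs β lam U - meanPressure β lam) ^ 2 ∂(haarO N) ≤
      4 * Real.pi ^ 2 * β ^ 2 * D ^ 2 * (1 + Real.log N) / N := by
  rcases hβ.lt_or_eq with h | h
  · have hanti : Antitone fun i => lam ((Fin.revPerm.trans (Tuple.sort lam)) i) := by
      intro i j hij
      exact Tuple.monotone_sort lam (Fin.rev_le_rev.2 hij)
    have := variance_le_antitone hN h (lam := fun i => lam ((Fin.revPerm.trans (Tuple.sort lam)) i))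
      (D := D) (fun i j => hD _ _) hanti
    rwa [variance_perm] at this
  · subst h
    have h0 : meanPressure 0 lam = 0 := by
      unfold meanPressure
      change ∫ U, prs 0 lam U ∂(haarO N) = 0
      simp_rw [prs_zero]
      simp
    simp_rw [prs_zero, h0]
    simp

end Vale.Agent.P166
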