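import Vale.Agent.P166.SmallStep

/-!
Self-averaging: an explicit bound on the variance of the pressure.
-/

open MeasureTheory Topology Matrix Finset

set_option linter.unusedSectionVars false

namespace Vale.Agent.P166

variable {N : ℕ}

lemma continuous_gibbs {Ω X : Type*} [Fintype Ω] [Nonempty Ω] [TopologicalSpace X]
    {E φ : X → Ω → ℝ} (hE : ∀ ω, Continuous fun x => E x ω) (hφ : ∀ ω, Continuous fun x => φ x ω) :
    Continuous fun x => gibbs (E x) (φ x) := by
  unfold gibbs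
  refine Continuous.div ?_ ?_ fun x => (Zf_pos _).ne'
  · exact continuous_finsetSum _ fun ω _ => ((hE ω).rexp).mul (hφ ω)
  · unfold Zf
    exact continuous_finsetSum _ fun ω _ => (hE ω).rexp

lemma en_rot_sub (β : ℝ) (lam : Fin N → ℝ) {k : Fin N} {w : Fin N → ℝ} (hw : ip w w = 1)
    (hwk : w k = 0) (h : ℝ) (U : OG N) (σ : Fin N → ℤˣ) :
    en β lam (Rot k w h * U) σ - en β lam U σ = β / 2 * Xf lam k w h (rot U σ) := by
  unfold en Xf
  rw [← mul_sub, ← Finset.sum_sub_distrib, rot_mul, Rot_coe hw hwk]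
  congr 1
  exact Finset.sum_congr rfl fun i _ => by ring

lemma rot_ip (U : OG N) (σ : Fin N → ℤˣ) : ip (rot U σ) (rot U σ) = N := by
  have := rot_sq_sum U σ
  unfold ip
  rw [← this]
  exact Finset.sum_congr rfl fun i _ => by ring

/-- Mean square change of the pressure under a rotation. -/
noncomputable def Dsq (β : ℝ) (lam : Fin N → ℝ) (k : Fin N) (w : Fin N → ℝ) (h : ℝ) : ℝ :=
  ∫ U, (prs β lam (Rot k w h * U) - prs β lam U) ^ 2 ∂(haarO N)

/-- Mean square of the linear coefficient. -/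
noncomputable def Qf (β : ℝ) (lam : Fin N → ℝ) (k : Fin N) (w : Fin N → ℝ) : ℝ :=
  ∫ U, gibbs (en β lam U) (fun σ => Lf lam k w (rot U σ) ^ 2) ∂(haarO N)

lemma continuous_prs (β : ℝ) (lam : Fin N → ℝ) : Continuous (prs β lam) :=
  continuous_pressure β lam

lemma continuous_Lf (lam : Fin N → ℝ) (k : Fin N) (w : Fin N → ℝ) (σ : Fin N → ℤˣ) :
    Continuous fun U : OG N => Lf lam k w (rot U σ) := by
  unfold Lf
  refine (continuous_rot σ k).mul (continuous_finsetSum _ fun i _ => ?_)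
  exact continuous_const.mul (continuous_const.mul (continuous_rot σ i))

lemma continuous_gibbs_Lf (β : ℝ) (lam : Fin N → ℝ) (k : Fin N) (w : Fin N → ℝ) :
    Continuous fun U : OG N => gibbs (en β lam U) (fun σ => Lf lam k w (rot U σ) ^ 2) :=
  continuous_gibbs (continuous_en β lam) fun σ => (continuous_Lf lam k w σ).pow 2

lemma Dsq_small (hN : 0 < N) (β : ℝ) {lam : Fin N → ℝ} {M : ℝ} (hM : ∀ i, |lam i| ≤ M)
    {k : Fin N} {w : Fin N → ℝ} (hw : ip w w = 1) (hwk : w k = 0) {h : ℝ} (hh : |h| ≤ 1) :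
    (N : ℝ) ^ 2 * Dsq β lam k w h ≤
      2 * β ^ 2 * h ^ 2 * Qf β lam k w + 120 * β ^ 2 * M ^ 2 * N ^ 2 * |h| ^ 3 := by
  set C := 240 * M ^ 2 * N ^ 2 * |h| ^ 3 with hC
  -- pointwise bounds
  have hpt : ∀ (h' : ℝ), |h'| ≤ 1 → |h'| = |h| → ∀ U : OG N,
      gibbs (en β lam U) (fun σ => (β / 2 * Xf lam k w h' (rot U σ)) ^ 2) ≤
      β ^ 2 * h ^ 2 * gibbs (en β lam U) (fun σ => Lf lam k w (rot U σ) ^ 2) +
        β ^ 2 / 4 * C := by
    intro h' hh' heq U
    have h1 : gibbs (en β lam U) (fun σ => (β / 2 * Xf lam k w h' (rot U σ)) ^ 2) ≤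
        gibbs (en β lam U) (fun σ => β ^ 2 * h ^ 2 * Lf lam k w (rot U σ) ^ 2 + β ^ 2 / 4 * C) := by
      apply gibbs_mono
      intro σ
      have h2 := Xf_sq_bound hM hw hwk hh' (rot_ip U σ)
      have h3 : h' ^ 2 = h ^ 2 := by rw [← sq_abs, heq, sq_abs]
      rw [h3, heq, ← hC] at h2
      calc (β / 2 * Xf lam k w h' (rot U σ)) ^ 2 = β ^ 2 / 4 * Xf lam k w h' (rot U σ) ^ 2 := by
            ring
        _ ≤ β ^ 2 / 4 * (4 * h ^ 2 * Lf lam k w (rot U σ) ^ 2 + C) := by gcongr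
        _ = _ := by ring
    refine h1.trans (le_of_eq ?_)
    rw [gibbs_add, gibbs_const_mul, gibbs_const]
  have hcX : ∀ h' : ℝ, ∀ σ, Continuous fun U : OG N => Xf lam k w h' (rot U σ) := by
    intro h' σ
    unfold Xf
    refine continuous_finsetSum _ fun i _ => continuous_const.mul (Continuous.sub ?_ ?_)
    · simp_rw [Rmat_mulVec]
      have hip : Continuous fun U : OG N => ip w (rot U σ) := by
        unfold ip
        exact continuous_finsetSum _ fun i _ => continuous_const.mul (continuous_rot σ i)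
      have c1 := continuous_rot σ (N := N) i
      have c2 := continuous_rot σ (N := N) k
      fun_prop
    · exact (continuous_rot σ i).pow 2
  have hint1 : ∀ h' : ℝ, Continuous fun U : OG N =>
      gibbs (en β lam U) (fun σ => (β / 2 * Xf lam k w h' (rot U σ)) ^ 2) := fun h' =>
    continuous_gibbs (continuous_en β lam) fun σ => (continuous_const.mul (hcX h' σ)).pow 2
  have hbd : ∀ (h' : ℝ), |h'| ≤ 1 → |h'| = |h| →
      ∫ U, gibbs (en β lam U) (fun σ => (β / 2 * Xf lam k w h' (rot U σ)) ^ 2) ∂(haarO N) ≤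
      β ^ 2 * h ^ 2 * Qf β lam k w + β ^ 2 / 4 * C := by
    intro h' hh' heq
    unfold Qf
    have : β ^ 2 * h ^ 2 * (∫ U, gibbs (en β lam U) (fun σ => Lf lam k w (rot U σ) ^ 2)
        ∂(haarO N)) + β ^ 2 / 4 * C = ∫ U, (β ^ 2 * h ^ 2 *
          gibbs (en β lam U) (fun σ => Lf lam k w (rot U σ) ^ 2) + β ^ 2 / 4 * C) ∂(haarO N) := by
      have hi : Integrable (fun U : OG N => β ^ 2 * h ^ 2 *
          gibbs (en β lam U) (fun σ => Lf lam k w (rot U σ) ^ 2)) (haarO N) :=
        intble _ (continuous_const.mul (continuous_gibbs_Lf β lam k w))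
      rw [integral_add hi (integrable_const _), integral_const_mul]
      simp
    rw [this]
    refine integral_mono (intble _ (hint1 h')) (intble _ ?_) (hpt h' hh' heq)
    exact (continuous_const.mul (continuous_gibbs_Lf β lam k w)).add continuous_const
  have hcR : Continuous fun U : OG N => Rot k w h * U := continuous_const_mul _
  have hmain : (N : ℝ) ^ 2 * Dsq β lam k w h ≤
      (∫ U, gibbs (en β lam U) (fun σ => (β / 2 * Xf lam k w h (rot U σ)) ^ 2) ∂(haarO N)) +
      ∫ U, gibbs (en β lam (Rot k w h * U))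
        (fun σ => (β / 2 * Xf lam k w h (rot U σ)) ^ 2) ∂(haarO N) := by
    unfold Dsq
    rw [← integral_const_mul]
    have hc2 : Continuous fun U : OG N => gibbs (en β lam (Rot k w h * U))
        (fun σ => (β / 2 * Xf lam k w h (rot U σ)) ^ 2) :=
      continuous_gibbs (fun σ => (continuous_en β lam σ).comp hcR)
        fun σ => (continuous_const.mul (hcX h σ)).pow 2
    rw [← integral_add (intble _ (hint1 h)) (intble _ hc2)]
    refine integral_mono (intble _ ?_) (intble _ ((hint1 h).add hc2)) ?_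
    · exact continuous_const.mul ((((continuous_prs β lam).comp hcR).sub
        (continuous_prs β lam)).pow 2)
    · intro U
      have := press_diff_sq hN β lam U (Rot k w h * U)
      simp_rw [en_rot_sub β lam hw hwk h U] at this
      exact this
  have hsecond : ∫ U, gibbs (en β lam (Rot k w h * U))
        (fun σ => (β / 2 * Xf lam k w h (rot U σ)) ^ 2) ∂(haarO N) =
      ∫ U, gibbs (en β lam U) (fun σ => (β / 2 * Xf lam k w (-h) (rot U σ)) ^ 2) ∂(haarO N) := by
    rw [← integral_mul_left_eq_self (μ := haarO N)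
      (fun U => gibbs (en β lam U) (fun σ => (β / 2 * Xf lam k w (-h) (rot U σ)) ^ 2))
      (Rot k w h)]
    congr 1
    funext U
    congr 1
    funext σ
    rw [← en_rot_sub β lam hw hwk, ← en_rot_sub β lam hw hwk, ← mul_assoc,
      Rot_mul hw hwk, neg_add_cancel, Rot_zero hw hwk, one_mul]
    ring
  rw [hsecond] at hmain
  have b1 := hbd h hh rfl
  have b2 := hbd (-h) (by rwa [abs_neg]) (abs_neg h)
  have : 120 * β ^ 2 * M ^ 2 * N ^ 2 * |h| ^ 3 = 2 * (β ^ 2 / 4 * C) := by rw [hC]; ring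
  rw [this]
  linarith

lemma Dsq_nsmul (β : ℝ) (lam : Fin N → ℝ) {k : Fin N} {w : Fin N → ℝ} (hw : ip w w = 1)
    (hwk : w k = 0) (h : ℝ) (n : ℕ) :
    Dsq β lam k w (n * h) ≤ (n : ℝ) ^ 2 * Dsq β lam k w h := by
  have hc : ∀ g : OG N, Continuous fun U : OG N => prs β lam (g * U) := fun g =>
    (continuous_prs β lam).comp (continuous_const_mul g)
  have hpt : ∀ U : OG N, (prs β lam (Rot k w (n * h) * U) - prs β lam U) ^ 2 ≤
      n * ∑ j ∈ range n, (prs β lam (Rot k w ((j + 1 : ℕ) * h) * U) -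
        prs β lam (Rot k w ((j : ℕ) * h) * U)) ^ 2 := by
    intro U
    have h1 : prs β lam (Rot k w (n * h) * U) - prs β lam U =
        ∑ j ∈ range n, (prs β lam (Rot k w ((j + 1 : ℕ) * h) * U) -
        prs β lam (Rot k w ((j : ℕ) * h) * U)) := by
      rw [Finset.sum_range_sub (fun j : ℕ => prs β lam (Rot k w ((j : ℕ) * h) * U))]
      simp [Rot_zero hw hwk]
    rw [h1]
    have := sq_sum_le_card_mul_sum_sq (s := range n) (f := fun j : ℕ =>
      prs β lam (Rot k w ((j + 1 : ℕ) * h) * U) - prs β lam (Rot k w ((j : ℕ) * h) * U))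
    rwa [Finset.card_range] at this
  have hterm : ∀ j : ℕ, ∫ U, (prs β lam (Rot k w ((j + 1 : ℕ) * h) * U) -
        prs β lam (Rot k w ((j : ℕ) * h) * U)) ^ 2 ∂(haarO N) = Dsq β lam k w h := by
    intro j
    unfold Dsq
    rw [← integral_mul_left_eq_self (μ := haarO N)
      (fun U => (prs β lam (Rot k w h * U) - prs β lam U) ^ 2) (Rot k w (j * h))]
    have hh : h + (j : ℝ) * h = ((j + 1 : ℕ) : ℝ) * h := by push_cast; ring
    have hpw : ∀ U : OG N, prs β lam (Rot k w h * (Rot k w (j * h) * U)) =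
        prs β lam (Rot k w ((j + 1 : ℕ) * h) * U) := by
      intro U
      rw [← mul_assoc (Rot k w h) (Rot k w (j * h)) U, Rot_mul hw hwk, hh]
    simp only [hpw]
  have hcj : ∀ j : ℕ, Continuous fun U : OG N => (prs β lam (Rot k w ((j + 1 : ℕ) * h) * U) -
        prs β lam (Rot k w ((j : ℕ) * h) * U)) ^ 2 := fun j => ((hc _).sub (hc _)).pow 2
  calc Dsq β lam k w (n * h) ≤ ∫ U, n * ∑ j ∈ range n, (prs β lam (Rot k w ((j + 1 : ℕ) * h) * U) -
        prs β lam (Rot k w ((j : ℕ) * h) * U)) ^ 2 ∂(haarO N) := by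
        unfold Dsq
        refine integral_mono (intble _ (((hc _).sub (continuous_prs β lam)).pow 2))
          (intble _ (continuous_const.mul (continuous_finsetSum _ fun j _ => hcj j))) hpt
    _ = (n : ℝ) ^ 2 * Dsq β lam k w h := by
        rw [integral_const_mul, integral_finsetSum _ fun j _ => intble _ (hcj j)]
        simp_rw [hterm]
        rw [Finset.sum_const, Finset.card_range, nsmul_eq_mul]
        ring

/-- Mean-square Lipschitz bound along rotations. -/
lemma Dsq_le (hN : 0 < N) (β : ℝ) (lam : Fin N → ℝ) {k : Fin N} {w : Fin N → ℝ}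
    (hw : ip w w = 1) (hwk : w k = 0) (θ : ℝ) :
    (N : ℝ) ^ 2 * Dsq β lam k w θ ≤ 2 * β ^ 2 * θ ^ 2 * Qf β lam k w := by
  obtain ⟨M, hM⟩ : ∃ M, ∀ i, |lam i| ≤ M :=
    ⟨∑ i, |lam i|, fun i => Finset.single_le_sum (f := fun i => |lam i|)
      (fun i _ => abs_nonneg _) (Finset.mem_univ i)⟩
  set C := 120 * β ^ 2 * M ^ 2 * N ^ 2 * |θ| ^ 3 with hC
  have hC0 : 0 ≤ C := by positivity
  have key : ∀ n : ℕ, 1 ≤ n → |θ| ≤ n →
      (N : ℝ) ^ 2 * Dsq β lam k w θ ≤ 2 * β ^ 2 * θ ^ 2 * Qf β lam k w + C / n := by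
    intro n hn hθ
    have hn0 : (0 : ℝ) < n := by exact_mod_cast hn
    have h1 := Dsq_nsmul β lam hw hwk (θ / n) n
    have h2 : (n : ℝ) * (θ / n) = θ := by field_simp
    rw [h2] at h1
    have h3 : |θ / n| ≤ 1 := by
      rw [abs_div, abs_of_pos hn0, div_le_one hn0]; exact hθ
    have h4 := Dsq_small hN β hM hw hwk h3
    calc (N : ℝ) ^ 2 * Dsq β lam k w θ ≤ (N : ℝ) ^ 2 * ((n : ℝ) ^ 2 * Dsq β lam k w (θ / n)) := by
          gcongr
      _ = (n : ℝ) ^ 2 * ((N : ℝ) ^ 2 * Dsq β lam k w (θ / n)) := by ring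
      _ ≤ (n : ℝ) ^ 2 * (2 * β ^ 2 * (θ / n) ^ 2 * Qf β lam k w +
          120 * β ^ 2 * M ^ 2 * N ^ 2 * |θ / n| ^ 3) := by gcongr
      _ = 2 * β ^ 2 * θ ^ 2 * Qf β lam k w + C / n := by
          rw [hC, abs_div, abs_of_pos hn0]
          field_simp
  have hlim : Filter.Tendsto (fun n : ℕ => 2 * β ^ 2 * θ ^ 2 * Qf β lam k w + C / (n : ℝ))
      Filter.atTop (𝓝 (2 * β ^ 2 * θ ^ 2 * Qf β lam k w + 0)) :=
    tendsto_const_nhds.add (tendsto_const_div_atTop_nhds_zero_nat C)
  rw [add_zero] at hlim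
  refine ge_of_tendsto hlim ?_
  obtain ⟨n0, hn0⟩ := exists_nat_ge |θ|
  filter_upwards [Filter.eventually_ge_atTop (max n0 1)] with n hn
  refine key n (le_trans (le_max_right _ _) hn) (hn0.trans ?_)
  exact_mod_cast le_trans (le_max_left _ _) hn

end Vale.Agent.P166
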